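import Vale.Agent.Lib.P254b.Gen

/-! # P254b units B1-B4: from the index types `(Fin n ⊕ Fin m) ⊕ Fin 1`, `Fin n ⊕ Fin m` to `Fin _` -/

namespace P254
open MeasureTheory

/-- the reindexing `(Fin n ⊕ Fin m) ⊕ Fin 1 ≃ Fin (n + m + 1)`. -/
def eJ (n m : ℕ) : (Fin n ⊕ Fin m) ⊕ Fin 1 ≃ Fin (n + m + 1) :=
  (Equiv.sumCongr finSumFinEquiv (Equiv.refl _)).trans finSumFinEquiv

theorem append_comp_finSum {n m : ℕ} (u : Fin n → ℝ) (v : Fin m → ℝ) :
    Fin.append u v ∘ (finSumFinEquiv : Fin n ⊕ Fin m ≃ Fin (n + m)) = Sum.elim u v := by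
  funext i
  rcases i with i | j
  · simp [Fin.append_left]
  · simp [Fin.append_right]

theorem append_comp_eJ {n m : ℕ} (u : Fin n → ℝ) (v : Fin m → ℝ) (s : Fin 1 → ℝ) :
    Fin.append (Fin.append u v) s ∘ eJ n m = Sum.elim (Sum.elim u v) s := by
  funext i
  rcases i with (i | j) | k
  · simp [eJ, Fin.append_left]
  · simp [eJ, Fin.append_left, Fin.append_right]
  · simp [eJ, Fin.append_right]

/-- B1. `Fin.append u v ∘ finSumFinEquiv = Sum.elim u v` (`Fin.append_left`, `Fin.append_right`). -/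
theorem join_reindex {n m : ℕ} (K : Set (E n)) (K' : Set (E m)) :
    (fun z : E (n + m + 1) => z ∘ eJ n m) '' (join K K') = joinG K K' := by
  apply Set.Subset.antisymm
  · rintro _ ⟨z, ⟨t, h0, h1, x, hx, y, hy, rfl⟩, rfl⟩
    exact ⟨t, h0, h1, x, hx, y, hy, append_comp_eJ _ _ _⟩
  · rintro _ ⟨t, h0, h1, x, hx, y, hy, rfl⟩
    exact ⟨_, ⟨t, h0, h1, x, hx, y, hy, rfl⟩, append_comp_eJ _ _ _⟩

/-- B2. -/
theorem prod_reindex {n m : ℕ} (K : Set (E n)) (K' : Set (E m)) :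
    (fun z : E (n + m) => z ∘ (finSumFinEquiv : Fin n ⊕ Fin m ≃ Fin (n + m))) '' (prod K K')
      = prodG K K' := by
  apply Set.Subset.antisymm
  · rintro _ ⟨z, ⟨x, hx, y, hy, rfl⟩, rfl⟩
    exact ⟨x, hx, y, hy, append_comp_finSum _ _⟩
  · rintro _ ⟨x, hx, y, hy, rfl⟩
    exact ⟨_, ⟨x, hx, y, hy, rfl⟩, append_comp_finSum _ _⟩

/-- The pyramid over `K ⊆ ℝ^n` with apex `e_{n+1}`: all `((1-t) x, t)`, `0 ≤ t ≤ 1`, `x ∈ K`. -/
def pyramid {n : ℕ} (K : Set (E n)) : Set (E (n + 1)) :=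
  {z | ∃ t : ℝ, 0 ≤ t ∧ t ≤ 1 ∧ ∃ x ∈ K, z = Fin.append ((1 - t) • x) (fun _ : Fin 1 => t)}

theorem append_empty {n : ℕ} (u : Fin n → ℝ) (y : Fin 0 → ℝ) :
    (Fin.append u y : Fin (n + 0) → ℝ) = u := by
  have hy : y = Fin.elim0 := Subsingleton.elim _ _
  rw [hy, Fin.append_elim0]
  rfl

/-- B3. A pyramid is the join with the one-point space `ℝ^0` (`n + 0 + 1` is definitionally `n + 1`;
`Fin.append u v = u` for `v : Fin 0 → ℝ`, by `funext` and `Fin.addCases` or `Fin.append_elim0`). -/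
theorem pyramid_eq_join {n : ℕ} (K : Set (E n)) :
    pyramid K = join K (Set.univ : Set (E 0)) := by
  apply Set.Subset.antisymm
  · rintro _ ⟨t, h0, h1, x, hx, rfl⟩
    refine ⟨t, h0, h1, x, hx, 0, Set.mem_univ _, ?_⟩
    rw [append_empty]
  · rintro _ ⟨t, h0, h1, x, hx, y, _, rfl⟩
    refine ⟨t, h0, h1, x, hx, ?_⟩
    rw [append_empty]

/-- B4. The one-point space (`Matrix.det_isEmpty`; `volume` on `Fin 0 → ℝ` is the Dirac mass:
`MeasureTheory.Measure.pi_of_empty` / `Real.volume_pi...`). -/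
theorem vol_univ_zero : vol (Set.univ : Set (E 0)) = 1 := by
  unfold vol
  rw [← Set.pi_univ Set.univ, volume_pi_pi]
  simp

theorem isoPow_univ_zero : isoPow (Set.univ : Set (E 0)) = 1 := by
  unfold isoPow
  rw [vol_univ_zero, Matrix.det_isEmpty]
  norm_num

theorem cN_zero : cN 0 = 1 := by
  simp [cN]

end P254
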