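import Vale.Agent.Lib.P254b.JoinCov

/-! # P254b units C1, C2: identities and inequalities for the constants `cN` (pure real algebra) -/

namespace P254

theorem cN_pos_C (n : ℕ) : 0 < cN n := by
  unfold cN
  positivity

/-- `(a + 1/2) log (1 + 1/a)` is antitone on `a > 0` (termwise comparison of the artanh series). -/
theorem half_log_anti {a b : ℝ} (ha : 0 < a) (hab : a ≤ b) :
    (b + 1 / 2) * Real.log (1 + b⁻¹) ≤ (a + 1 / 2) * Real.log (1 + a⁻¹) := by
  have hb : 0 < b := lt_of_lt_of_le ha hab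
  have h1 := (Real.hasSum_log_one_add_inv ha).mul_left (a + 1 / 2)
  have h2 := (Real.hasSum_log_one_add_inv hb).mul_left (b + 1 / 2)
  refine hasSum_le (fun k => ?_) h2 h1
  have e1 : ∀ c : ℝ, 0 < c → (c + 1 / 2) * (2 * (1 / (2 * (k : ℝ) + 1)) * (1 / (2 * c + 1)) ^ (2 * k + 1))
      = (1 / (2 * (k : ℝ) + 1)) * (1 / (2 * c + 1)) ^ (2 * k) := by
    intro c hc
    have : (2 * c + 1) ≠ 0 := by positivity
    rw [pow_succ]
    field_simp
  rw [e1 a ha, e1 b hb]
  apply mul_le_mul_of_nonneg_left _ (by positivity)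
  apply pow_le_pow_left₀ (by positivity)
  apply one_div_le_one_div_of_le (by positivity)
  linarith

theorem log_cN (n : ℕ) : Real.log (cN n) = 2 * Real.log (n.factorial : ℝ)
    - ((n : ℝ) + 1) * Real.log ((n : ℝ) + 1) - (n : ℝ) * Real.log ((n : ℝ) + 2) := by
  unfold cN
  have h1 : ((n.factorial : ℝ)) ≠ 0 := by positivity
  have h2 : ((n : ℝ) + 1) ≠ 0 := by positivity
  have h3 : ((n : ℝ) + 2) ≠ 0 := by positivity
  rw [Real.log_div (by positivity) (by positivity), Real.log_mul (by positivity) (by positivity),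
    Real.log_pow, Real.log_pow, Real.log_pow]
  push_cast
  ring

theorem cN_ratio_mono (n : ℕ) : cN (n + 1) * cN (n + 1) ≤ cN n * cN (n + 2) := by
  have p0 := cN_pos_C n
  have p1 := cN_pos_C (n + 1)
  have p2 := cN_pos_C (n + 2)
  rw [← Real.log_le_log_iff (by positivity) (by positivity), Real.log_mul p1.ne' p1.ne',
    Real.log_mul p0.ne' p2.ne', log_cN, log_cN, log_cN]
  have x0 : (0 : ℝ) ≤ n := Nat.cast_nonneg n
  have f1 : Real.log ((n + 1).factorial : ℝ) = Real.log ((n : ℝ) + 1) + Real.log (n.factorial : ℝ) := by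
    rw [Nat.factorial_succ]
    push_cast
    rw [Real.log_mul (by positivity) (by positivity)]
  have f2 : Real.log ((n + 2).factorial : ℝ) = Real.log ((n : ℝ) + 2) + Real.log ((n + 1).factorial : ℝ) := by
    rw [Nat.factorial_succ]
    push_cast
    rw [Real.log_mul (by positivity) (by positivity)]
    ring_nf
  rw [f2, f1]
  push_cast
  have hA := half_log_anti (a := (n : ℝ) + 1) (b := (n : ℝ) + 3) (by positivity) (by linarith)
  have g1 : Real.log (1 + ((n : ℝ) + 1)⁻¹) = Real.log ((n : ℝ) + 2) - Real.log ((n : ℝ) + 1) := by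
    rw [← Real.log_div (by positivity) (by positivity)]
    congr 1
    field_simp
    ring
  have g3 : Real.log (1 + ((n : ℝ) + 3)⁻¹) = Real.log ((n : ℝ) + 4) - Real.log ((n : ℝ) + 3) := by
    rw [← Real.log_div (by positivity) (by positivity)]
    congr 1
    field_simp
    ring
  rw [g1, g3] at hA
  have hB : 3 * Real.log ((n : ℝ) + 3) + Real.log ((n : ℝ) + 1)
      ≤ 3 * Real.log ((n : ℝ) + 2) + Real.log ((n : ℝ) + 4) := by
    have : Real.log (((n : ℝ) + 3) ^ 3 * ((n : ℝ) + 1)) ≤ Real.log (((n : ℝ) + 2) ^ 3 * ((n : ℝ) + 4)) := by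
      apply Real.log_le_log (by positivity)
      nlinarith
    rw [Real.log_mul (by positivity) (by positivity), Real.log_mul (by positivity) (by positivity),
      Real.log_pow, Real.log_pow] at this
    push_cast at this
    exact this
  have e1 : (n : ℝ) + 1 + 1 = n + 2 := by ring
  have e2 : (n : ℝ) + 1 + 2 = n + 3 := by ring
  have e3 : (n : ℝ) + 2 + 1 = n + 3 := by ring
  have e4 : (n : ℝ) + 2 + 2 = n + 4 := by ring
  rw [e1, e2, e3, e4]
  nlinarith [hA, hB]

theorem cN_zero_C : cN 0 = 1 := by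
  unfold cN
  norm_num

/-- the ratio `cN (k+1) / cN k` -/
noncomputable def rNC (k : ℕ) : ℝ := cN (k + 1) / cN k

theorem rNC_pos (k : ℕ) : 0 < rNC k := div_pos (cN_pos_C _) (cN_pos_C _)

theorem cN_succ_eq (k : ℕ) : cN (k + 1) = cN k * rNC k := by
  unfold rNC
  have := (cN_pos_C k).ne'
  field_simp

theorem rNC_mono : Monotone rNC := by
  apply monotone_nat_of_le_succ
  intro k
  unfold rNC
  rw [div_le_div_iff₀ (cN_pos_C _) (cN_pos_C _)]
  have := cN_ratio_mono k
  linarith

theorem cN_mul_le (n m : ℕ) : cN n * cN m ≤ cN (n + m) := by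
  induction m with
  | zero => simp [cN_zero_C]
  | succ m ih =>
    rw [← add_assoc, cN_succ_eq m, cN_succ_eq (n + m)]
    calc cN n * (cN m * rNC m) = (cN n * cN m) * rNC m := by ring
      _ ≤ cN (n + m) * rNC m := mul_le_mul_of_nonneg_right ih (rNC_pos m).le
      _ ≤ cN (n + m) * rNC (n + m) :=
        mul_le_mul_of_nonneg_left (rNC_mono (Nat.le_add_left m n)) (cN_pos_C _).le

theorem rNC_zero_lt_one : rNC 0 < rNC 1 := by
  unfold rNC cN
  norm_num [Nat.factorial]

theorem cN_mul_lt (n m : ℕ) (hn : 1 ≤ n) (hm : 1 ≤ m) : cN n * cN m < cN (n + m) := by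
  induction m, hm using Nat.le_induction with
  | base =>
    rw [cN_succ_eq n, cN_succ_eq 0, cN_zero_C, one_mul]
    exact mul_lt_mul_of_pos_left (lt_of_lt_of_le rNC_zero_lt_one (rNC_mono hn)) (cN_pos_C n)
  | succ m hm ih =>
    rw [← add_assoc, cN_succ_eq m, cN_succ_eq (n + m)]
    calc cN n * (cN m * rNC m) = (cN n * cN m) * rNC m := by ring
      _ < cN (n + m) * rNC m := mul_lt_mul_of_pos_right ih (rNC_pos m)
      _ ≤ cN (n + m) * rNC (n + m) :=
        mul_le_mul_of_nonneg_left (rNC_mono (Nat.le_add_left m n)) (cN_pos_C _).le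

theorem cN_join (n m : ℕ) :
    jV n m * jA n m ^ n * jA m n ^ m
      / ((n.factorial : ℝ) * (m.factorial : ℝ) / ((n + m + 1).factorial : ℝ)) ^ 2
      * (cN n * cN m) = cN (n + m + 1) := by
  unfold jV jA cN
  have hF : ((n.factorial : ℝ)) ≠ 0 := by positivity
  have hG : ((m.factorial : ℝ)) ≠ 0 := by positivity
  have hH : (((n + m + 1).factorial : ℝ)) ≠ 0 := by positivity
  generalize (n.factorial : ℝ) = F at *
  generalize (m.factorial : ℝ) = G at *
  generalize ((n + m + 1).factorial : ℝ) = H at *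
  push_cast
  have ha : ((n : ℝ) + 1) ≠ 0 := by positivity
  have hb : ((n : ℝ) + 2) ≠ 0 := by positivity
  have hc : ((m : ℝ) + 1) ≠ 0 := by positivity
  have hd : ((m : ℝ) + 2) ≠ 0 := by positivity
  have hs : ((n : ℝ) + m + 2) ≠ 0 := by positivity
  have ht : ((n : ℝ) + m + 3) ≠ 0 := by positivity
  have e1 : (m : ℝ) + n + 2 = n + m + 2 := by ring
  have e2 : (m : ℝ) + n + 3 = n + m + 3 := by ring
  have e3 : (n : ℝ) + m + 1 + 1 = n + m + 2 := by ring
  have e4 : (n : ℝ) + m + 1 + 2 = n + m + 3 := by ring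
  rw [e1, e2, e3, e4]
  generalize (n : ℝ) + 1 = a at *
  generalize (n : ℝ) + 2 = b at *
  generalize (m : ℝ) + 1 = c at *
  generalize (m : ℝ) + 2 = d at *
  generalize (n : ℝ) + m + 2 = s at *
  generalize (n : ℝ) + m + 3 = t at *
  simp only [div_pow, mul_pow, pow_succ, pow_add, pow_zero]
  field_simp

end P254
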