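import Vale.Agent.Lib.P254b.Bridge

/-! # P254b units V1-V3: joins, pyramids and products of compact convex sets are compact and convex -/

namespace P254

theorem append_lin_V {n m : ℕ} (a b : ℝ) (u u' : Fin n → ℝ) (v v' : Fin m → ℝ) :
    a • Fin.append u v + b • Fin.append u' v' = Fin.append (a • u + b • u') (a • v + b • v') := by
  funext i
  refine Fin.addCases (fun i => ?_) (fun i => ?_) i <;>
    simp [Fin.append_left, Fin.append_right]

theorem exists_comb_V {n : ℕ} (K : Set (E n)) (hK : Convex ℝ K) {x₁ x₂ : E n} (h₁ : x₁ ∈ K)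
    (h₂ : x₂ ∈ K) {α β : ℝ} (hα : 0 ≤ α) (hβ : 0 ≤ β) :
    ∃ x ∈ K, (α + β) • x = α • x₁ + β • x₂ := by
  rcases (add_nonneg hα hβ).eq_or_lt with h0 | hpos
  · have ha : α = 0 := by linarith
    have hb : β = 0 := by linarith
    exact ⟨x₁, h₁, by simp [ha, hb]⟩
  · refine ⟨(α / (α + β)) • x₁ + (β / (α + β)) • x₂,
      hK h₁ h₂ (by positivity) (by positivity) (by field_simp), ?_⟩
    rw [smul_add, smul_smul, smul_smul, mul_div_cancel₀ _ hpos.ne', mul_div_cancel₀ _ hpos.ne']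

/-- V1.  For `z₁ = ((1-t₁)x₁, t₁y₁, t₁)`, `z₂` similarly and weights `a + b = 1`: `t = a t₁ + b t₂`;
if `0 < t < 1` take `x = (a(1-t₁)x₁ + b(1-t₂)x₂)/(1-t) ∈ K`, `y = (a t₁ y₁ + b t₂ y₂)/t ∈ K'`;
the cases `t = 0`, `t = 1` are degenerate. -/
theorem convex_join {n m : ℕ} (K : Set (E n)) (K' : Set (E m)) (hK : Convex ℝ K)
    (hK' : Convex ℝ K') : Convex ℝ (join K K') := by
  rintro z₁ ⟨t₁, ht₁, ht₁', x₁, hx₁, y₁, hy₁, rfl⟩ z₂ ⟨t₂, ht₂, ht₂', x₂, hx₂, y₂, hy₂, rfl⟩
    a b ha hb hab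
  obtain ⟨x, hx, hxe⟩ := exists_comb_V K hK hx₁ hx₂ (α := a * (1 - t₁)) (β := b * (1 - t₂))
    (mul_nonneg ha (by linarith)) (mul_nonneg hb (by linarith))
  obtain ⟨y, hy, hye⟩ := exists_comb_V K' hK' hy₁ hy₂ (α := a * t₁) (β := b * t₂)
    (mul_nonneg ha ht₁) (mul_nonneg hb ht₂)
  refine ⟨a * t₁ + b * t₂, by positivity, ?_, x, hx, y, hy, ?_⟩
  · nlinarith
  · rw [append_lin_V, append_lin_V]
    have e1 : (1 - (a * t₁ + b * t₂)) = a * (1 - t₁) + b * (1 - t₂) := by
      have : (1 : ℝ) = a + b := hab.symm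
      linear_combination this
    rw [e1, hxe, hye, smul_smul, smul_smul, smul_smul, smul_smul]
    congr 1

/-- V2. -/
theorem convex_prod {n m : ℕ} (K : Set (E n)) (K' : Set (E m)) (hK : Convex ℝ K)
    (hK' : Convex ℝ K') : Convex ℝ (prod K K') := by
  rintro z₁ ⟨x₁, hx₁, y₁, hy₁, rfl⟩ z₂ ⟨x₂, hx₂, y₂, hy₂, rfl⟩ a b ha hb hab
  exact ⟨a • x₁ + b • x₂, hK hx₁ hx₂ ha hb hab, a • y₁ + b • y₂, hK' hy₁ hy₂ ha hb hab,
    append_lin_V a b x₁ x₂ y₁ y₂⟩

theorem continuous_append_V {X : Type*} [TopologicalSpace X] {n m : ℕ} {f : X → Fin n → ℝ}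
    {g : X → Fin m → ℝ} (hf : Continuous f) (hg : Continuous g) :
    Continuous (fun p => Fin.append (f p) (g p)) := by
  refine continuous_pi fun i => ?_
  refine Fin.addCases (fun i => ?_) (fun i => ?_) i
  · simp only [Fin.append_left]
    exact (continuous_apply i).comp hf
  · simp only [Fin.append_right]
    exact (continuous_apply i).comp hg

/-- V3. continuous images of compact sets. -/
theorem isCompact_join {n m : ℕ} (K : Set (E n)) (K' : Set (E m)) (hK : IsCompact K)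
    (hK' : IsCompact K') : IsCompact (join K K') := by
  have hc : Continuous (fun p : ℝ × E n × E m =>
      Fin.append (Fin.append ((1 - p.1) • p.2.1) (p.1 • p.2.2)) (fun _ : Fin 1 => p.1)) := by
    refine continuous_append_V (continuous_append_V ?_ ?_) ?_
    · exact (continuous_const.sub continuous_fst).smul (continuous_fst.comp continuous_snd)
    · exact continuous_fst.smul (continuous_snd.comp continuous_snd)
    · exact continuous_pi fun _ => continuous_fst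
  have himg : join K K' = (fun p : ℝ × E n × E m =>
      Fin.append (Fin.append ((1 - p.1) • p.2.1) (p.1 • p.2.2)) (fun _ : Fin 1 => p.1)) ''
      (Set.Icc (0 : ℝ) 1 ×ˢ (K ×ˢ K')) := by
    ext z
    constructor
    · rintro ⟨t, ht, ht', x, hx, y, hy, rfl⟩
      exact ⟨(t, x, y), ⟨⟨ht, ht'⟩, hx, hy⟩, rfl⟩
    · rintro ⟨⟨t, x, y⟩, ⟨⟨ht, ht'⟩, hx, hy⟩, rfl⟩
      exact ⟨t, ht, ht', x, hx, y, hy, rfl⟩
  rw [himg]
  exact (isCompact_Icc.prod (hK.prod hK')).image hc

theorem isCompact_prod {n m : ℕ} (K : Set (E n)) (K' : Set (E m)) (hK : IsCompact K)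
    (hK' : IsCompact K') : IsCompact (prod K K') := by
  have hc : Continuous (fun p : E n × E m => Fin.append p.1 p.2) :=
    continuous_append_V continuous_fst continuous_snd
  have himg : prod K K' = (fun p : E n × E m => Fin.append p.1 p.2) '' (K ×ˢ K') := by
    ext z
    constructor
    · rintro ⟨x, hx, y, hy, rfl⟩
      exact ⟨(x, y), ⟨hx, hy⟩, rfl⟩
    · rintro ⟨⟨x, y⟩, ⟨hx, hy⟩, rfl⟩
      exact ⟨x, hx, y, hy, rfl⟩
  rw [himg]
  exact (hK.prod hK').image hc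

end P254
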