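import Vale.Agent.Lib.P254b.Gen

/-! # P254b unit G1: covariance from raw moments (copy the proof of `P254.cov_eq` in P254/CovEq.lean) -/

namespace P254
open MeasureTheory
variable {ι : Type*} [Fintype ι]

theorem covG_eq (K : Set (ι → ℝ)) (hK : IsCompact K) (hv : volG K ≠ 0) (i j : ι) :
    covG K i j = m2G K i j - cenG K i * cenG K j := by
  have hi : ∀ l : ι, IntegrableOn (fun x : ι → ℝ => x l) K :=
    fun l => (continuous_apply l).continuousOn.integrableOn_compact hK
  have hij : IntegrableOn (fun x : ι → ℝ => x i * x j) K :=
    ((continuous_apply i).mul (continuous_apply j)).continuousOn.integrableOn_compact hK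
  have hc : ∀ c : ℝ, IntegrableOn (fun _ : ι → ℝ => c) K :=
    fun c => continuous_const.continuousOn.integrableOn_compact hK
  set ci := cenG K i with hci
  set cj := cenG K j with hcj
  have e : ∀ x : ι → ℝ, (x i - ci) * (x j - cj) = x i * x j - cj * x i - ci * x j + ci * cj := by
    intro x; ring
  have h1 : ∫ x in K, (x i - ci) * (x j - cj) =
      (∫ x in K, x i * x j) - cj * (∫ x in K, x i) - ci * (∫ x in K, x j) + ci * cj * volG K := by
    simp only [e]
    have a1 : IntegrableOn (fun x : ι → ℝ => cj * x i) K := (hi i).const_mul cj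
    have a2 : IntegrableOn (fun x : ι → ℝ => ci * x j) K := (hi j).const_mul ci
    have a3 : IntegrableOn (fun x : ι → ℝ => x i * x j - cj * x i) K := hij.sub a1
    have a4 : IntegrableOn (fun x : ι → ℝ => x i * x j - cj * x i - ci * x j) K := a3.sub a2
    rw [integral_add a4 (hc _), integral_sub a3 a2, integral_sub hij a1, integral_const_mul,
      integral_const_mul, setIntegral_const]
    simp [volG, Measure.real, mul_comm]
  simp only [covG, Matrix.of_apply]
  rw [← hci, ← hcj, h1, hci, hcj]
  simp only [cenG, m2G]
  field_simp
  ring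

theorem m2G_comm (K : Set (ι → ℝ)) (i j : ι) : m2G K i j = m2G K j i := by
  unfold m2G
  congr 1
  refine integral_congr_ae (Filter.Eventually.of_forall fun x => ?_)
  exact mul_comm _ _

end P254
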