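import Vale.Agent.Lib.P254.Defs

/-!
# P254 part 2 (joins, pyramids, products): definitions over an arbitrary finite index type

`ℝ^ι = ι → ℝ` with Lebesgue measure `volume`.  For `ι = Fin n` everything is definitionally the
corresponding notion of `P254/Defs.lean`.
-/

namespace P254

open MeasureTheory

section
variable {ι κ : Type*} [Fintype ι] [Fintype κ]

/-- Lebesgue volume as a real number. -/
noncomputable def volG (K : Set (ι → ℝ)) : ℝ := (volume K).toReal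

/-- Centroid. -/
noncomputable def cenG (K : Set (ι → ℝ)) : ι → ℝ := fun i => (∫ x in K, x i) / volG K

/-- Normalised raw second moments. -/
noncomputable def m2G (K : Set (ι → ℝ)) (i j : ι) : ℝ := (∫ x in K, x i * x j) / volG K

/-- Covariance matrix. -/
noncomputable def covG (K : Set (ι → ℝ)) : Matrix ι ι ℝ :=
  Matrix.of fun i j => (∫ x in K, (x i - cenG K i) * (x j - cenG K j)) / volG K

/-- `det Σ_K / |K|^2`. -/
noncomputable def isoPowG [DecidableEq ι] (K : Set (ι → ℝ)) : ℝ := (covG K).det / (volG K) ^ 2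

/-- The join `{((1-t) x, t y, t) : 0 ≤ t ≤ 1, x ∈ K, y ∈ K'}`. -/
def joinG (K : Set (ι → ℝ)) (K' : Set (κ → ℝ)) : Set ((ι ⊕ κ) ⊕ Fin 1 → ℝ) :=
  {z | ∃ t : ℝ, 0 ≤ t ∧ t ≤ 1 ∧ ∃ x ∈ K, ∃ y ∈ K',
    z = Sum.elim (Sum.elim ((1 - t) • x) (t • y)) (fun _ => t)}

/-- The Cartesian product. -/
def prodG (K : Set (ι → ℝ)) (K' : Set (κ → ℝ)) : Set (ι ⊕ κ → ℝ) :=
  {z | ∃ x ∈ K, ∃ y ∈ K', z = Sum.elim x y}

end

theorem isoPowG_fin {n : ℕ} (K : Set (E n)) : isoPowG K = isoPow K := rfl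

/-- The join of `K ⊆ ℝ^n` and `K' ⊆ ℝ^m` in `ℝ^(n+m+1)`:
all points `((1-t) x, t y, t)` with `0 ≤ t ≤ 1`, `x ∈ K`, `y ∈ K'`. -/
def join {n m : ℕ} (K : Set (E n)) (K' : Set (E m)) : Set (E (n + m + 1)) :=
  {z | ∃ t : ℝ, 0 ≤ t ∧ t ≤ 1 ∧ ∃ x ∈ K, ∃ y ∈ K',
    z = Fin.append (Fin.append ((1 - t) • x) (t • y)) (fun _ : Fin 1 => t)}

/-- The Cartesian product of `K ⊆ ℝ^n` and `K' ⊆ ℝ^m` in `ℝ^(n+m)`. -/
def prod {n m : ℕ} (K : Set (E n)) (K' : Set (E m)) : Set (E (n + m)) :=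
  {z | ∃ x ∈ K, ∃ y ∈ K', z = Fin.append x y}

end P254
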