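import Vale.Agent.Lib.P254b.Gen

/-! # P254b unit J4: the determinant of the covariance matrix of a join (pure linear algebra)

`Matrix.det_fromBlocks₂₂` (Schur complement with respect to the invertible `1 × 1` block `v`):
`A + v u uᵀ - (v u) v⁻¹ (v uᵀ) = A` with `A = fromBlocks (α S) 0 0 (α' S')`; then
`Matrix.det_fromBlocks_zero₂₁`, `Matrix.det_smul`. -/

namespace P254
variable {ι κ : Type*} [Fintype ι] [Fintype κ] [DecidableEq ι] [DecidableEq κ]

/-- `diag(α S, α' S', 0) + v w wᵀ` with `w = (-b, b', 1)`. -/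
noncomputable def joinCovM (α α' v : ℝ) (S : Matrix ι ι ℝ) (S' : Matrix κ κ ℝ) (b : ι → ℝ)
    (b' : κ → ℝ) : Matrix ((ι ⊕ κ) ⊕ Fin 1) ((ι ⊕ κ) ⊕ Fin 1) ℝ :=
  Matrix.fromBlocks
    (Matrix.fromBlocks (α • S) 0 0 (α' • S')
      + v • Matrix.vecMulVec (Sum.elim (-b) b') (Sum.elim (-b) b'))
    (Matrix.of fun p _ => v * Sum.elim (-b) b' p)
    (Matrix.of fun _ p => v * Sum.elim (-b) b' p)
    (Matrix.of fun _ _ => v)

theorem det_joinCovM (α α' v : ℝ) (hv : v ≠ 0) (S : Matrix ι ι ℝ) (S' : Matrix κ κ ℝ) (b : ι → ℝ)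
    (b' : κ → ℝ) :
    (joinCovM α α' v S S' b b').det
      = v * α ^ Fintype.card ι * α' ^ Fintype.card κ * S.det * S'.det := by
  classical
  have hD1 : (Matrix.of fun _ _ => v⁻¹ : Matrix (Fin 1) (Fin 1) ℝ)
      * (Matrix.of fun _ _ => v : Matrix (Fin 1) (Fin 1) ℝ) = 1 := by
    ext i j
    have hij : i = j := Subsingleton.elim i j
    subst hij
    simp [Matrix.mul_apply, hv]
  have hD2 : (Matrix.of fun _ _ => v : Matrix (Fin 1) (Fin 1) ℝ)
      * (Matrix.of fun _ _ => v⁻¹ : Matrix (Fin 1) (Fin 1) ℝ) = 1 := by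
    ext i j
    have hij : i = j := Subsingleton.elim i j
    subst hij
    simp [Matrix.mul_apply, hv]
  letI : Invertible (Matrix.of fun _ _ => v : Matrix (Fin 1) (Fin 1) ℝ) := ⟨_, hD1, hD2⟩
  have hinv : ⅟(Matrix.of fun _ _ => v : Matrix (Fin 1) (Fin 1) ℝ)
      = (Matrix.of fun _ _ => v⁻¹ : Matrix (Fin 1) (Fin 1) ℝ) := rfl
  unfold joinCovM
  rw [Matrix.det_fromBlocks₂₂, hinv]
  have hS : (Matrix.fromBlocks (α • S) 0 0 (α' • S')
      + v • Matrix.vecMulVec (Sum.elim (-b) b') (Sum.elim (-b) b'))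
      - (Matrix.of fun p (_ : Fin 1) => v * Sum.elim (-b) b' p)
        * (Matrix.of fun _ _ => v⁻¹ : Matrix (Fin 1) (Fin 1) ℝ)
        * (Matrix.of fun (_ : Fin 1) p => v * Sum.elim (-b) b' p)
      = Matrix.fromBlocks (α • S) 0 0 (α' • S') := by
    ext p q
    simp only [Matrix.sub_apply, Matrix.add_apply, Matrix.smul_apply, Matrix.vecMulVec_apply,
      Matrix.mul_apply, Matrix.of_apply, Finset.univ_unique, Finset.sum_singleton, smul_eq_mul]
    field_simp
    ring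
  rw [hS, Matrix.det_fromBlocks_zero₂₁, Matrix.det_smul, Matrix.det_smul]
  simp only [Matrix.det_unique, Matrix.of_apply]
  ring

end P254
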