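import Vale.Agent.Lib.P254b.JoinMom
import Vale.Agent.Lib.P254b.JoinDet
import Vale.Agent.Lib.P254b.CovG

/-! # P254b unit J3: the covariance matrix of a join

`ext p q`, nine cases (`rcases p with (i | j) | k`, `Fin.fin_one_eq_zero`/`Subsingleton.elim k 0`);
in each case `covG_eq` for the join (compact by `isCompact_joinG`, volume `≠ 0` by `volG_joinG`),
the lemmas of `JoinMom.lean` (`m2G_comm` for the transposed cases), `covG_eq` for `K`, `K'`, then
`field_simp; ring`. -/

namespace P254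
open MeasureTheory
variable {ι κ : Type*} [Fintype ι] [Fintype κ] [DecidableEq ι] [DecidableEq κ]

/-- `α = (n+1)(n+2)/((n+m+2)(n+m+3))`. -/
noncomputable def jA (n m : ℕ) : ℝ :=
  ((n : ℝ) + 1) * ((n : ℝ) + 2) / (((n : ℝ) + m + 2) * ((n : ℝ) + m + 3))

/-- `v = (n+1)(m+1)/((n+m+2)^2 (n+m+3))`. -/
noncomputable def jV (n m : ℕ) : ℝ :=
  ((n : ℝ) + 1) * ((m : ℝ) + 1) / (((n : ℝ) + m + 2) ^ 2 * ((n : ℝ) + m + 3))

theorem covG_joinG (K : Set (ι → ℝ)) (K' : Set (κ → ℝ)) (hK : IsCompact K) (hK' : IsCompact K')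
    (hv : volG K ≠ 0) (hv' : volG K' ≠ 0) :
    covG (joinG K K') = joinCovM (jA (Fintype.card ι) (Fintype.card κ))
      (jA (Fintype.card κ) (Fintype.card ι)) (jV (Fintype.card ι) (Fintype.card κ))
      (covG K) (covG K') (cenG K) (cenG K') := by
  have hJ := isCompact_joinG K K' hK hK'
  have hvJ : volG (joinG K K') ≠ 0 := by
    rw [volG_joinG K K' hK hK']
    have h1 : ((Fintype.card ι).factorial : ℝ) ≠ 0 := by positivity
    have h2 : ((Fintype.card κ).factorial : ℝ) ≠ 0 := by positivity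
    have h3 : ((Fintype.card ι + Fintype.card κ + 1).factorial : ℝ) ≠ 0 := by positivity
    exact mul_ne_zero (div_ne_zero (mul_ne_zero h1 h2) h3) (mul_ne_zero hv hv')
  have hN2 : ((Fintype.card ι : ℝ) + Fintype.card κ + 2) ≠ 0 := by positivity
  have hN3 : ((Fintype.card ι : ℝ) + Fintype.card κ + 3) ≠ 0 := by positivity
  have hN2' : ((Fintype.card κ : ℝ) + Fintype.card ι + 2) ≠ 0 := by positivity
  have hN3' : ((Fintype.card κ : ℝ) + Fintype.card ι + 3) ≠ 0 := by positivity
  ext p q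
  rw [covG_eq _ hJ hvJ]
  rcases p with (i | i) | k <;> rcases q with (j | j) | l
  · rw [m2G_joinG_xx K K' hK hK' hv hv', cenG_joinG_x K K' hK hK' hv hv',
      cenG_joinG_x K K' hK hK' hv hv']
    simp only [joinCovM, Matrix.fromBlocks_apply₁₁, Matrix.add_apply, Matrix.smul_apply,
      Matrix.vecMulVec_apply, Sum.elim_inl, Pi.neg_apply, smul_eq_mul, covG_eq K hK hv, jA, jV]
    field_simp
    ring
  · rw [m2G_joinG_xy K K' hK hK' hv hv', cenG_joinG_x K K' hK hK' hv hv',
      cenG_joinG_y K K' hK hK' hv hv']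
    simp only [joinCovM, Matrix.fromBlocks_apply₁₁, Matrix.fromBlocks_apply₁₂, Matrix.add_apply,
      Matrix.smul_apply, Matrix.zero_apply,
      Matrix.vecMulVec_apply, Sum.elim_inl, Sum.elim_inr, Pi.neg_apply, smul_eq_mul, jA, jV]
    field_simp
    ring
  · obtain rfl : l = 0 := Subsingleton.elim l 0
    rw [m2G_joinG_xt K K' hK hK' hv hv', cenG_joinG_x K K' hK hK' hv hv',
      cenG_joinG_t K K' hK hK' hv hv']
    simp only [joinCovM, Matrix.fromBlocks_apply₁₂, Matrix.of_apply, Sum.elim_inl, Pi.neg_apply,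
      jA, jV]
    field_simp
    ring
  · rw [m2G_comm, m2G_joinG_xy K K' hK hK' hv hv', cenG_joinG_x K K' hK hK' hv hv',
      cenG_joinG_y K K' hK hK' hv hv']
    simp only [joinCovM, Matrix.fromBlocks_apply₁₁, Matrix.fromBlocks_apply₂₁, Matrix.add_apply,
      Matrix.smul_apply, Matrix.zero_apply,
      Matrix.vecMulVec_apply, Sum.elim_inl, Sum.elim_inr, Pi.neg_apply, smul_eq_mul, jA, jV]
    field_simp
    ring
  · rw [m2G_joinG_yy K K' hK hK' hv hv', cenG_joinG_y K K' hK hK' hv hv',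
      cenG_joinG_y K K' hK hK' hv hv']
    simp only [joinCovM, Matrix.fromBlocks_apply₁₁, Matrix.fromBlocks_apply₂₂, Matrix.add_apply,
      Matrix.smul_apply,
      Matrix.vecMulVec_apply, Sum.elim_inr, smul_eq_mul, covG_eq K' hK' hv', jA, jV]
    field_simp
    ring
  · obtain rfl : l = 0 := Subsingleton.elim l 0
    rw [m2G_joinG_yt K K' hK hK' hv hv', cenG_joinG_y K K' hK hK' hv hv',
      cenG_joinG_t K K' hK hK' hv hv']
    simp only [joinCovM, Matrix.fromBlocks_apply₁₂, Matrix.of_apply, Sum.elim_inr, jA, jV]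
    field_simp
    ring
  · obtain rfl : k = 0 := Subsingleton.elim k 0
    rw [m2G_comm, m2G_joinG_xt K K' hK hK' hv hv', cenG_joinG_x K K' hK hK' hv hv',
      cenG_joinG_t K K' hK hK' hv hv']
    simp only [joinCovM, Matrix.fromBlocks_apply₂₁, Matrix.of_apply, Sum.elim_inl, Pi.neg_apply,
      jA, jV]
    field_simp
    ring
  · obtain rfl : k = 0 := Subsingleton.elim k 0
    rw [m2G_comm, m2G_joinG_yt K K' hK hK' hv hv', cenG_joinG_y K K' hK hK' hv hv',
      cenG_joinG_t K K' hK hK' hv hv']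
    simp only [joinCovM, Matrix.fromBlocks_apply₂₁, Matrix.of_apply, Sum.elim_inr, jA, jV]
    field_simp
    ring
  · obtain rfl : k = 0 := Subsingleton.elim k 0
    obtain rfl : l = 0 := Subsingleton.elim l 0
    rw [m2G_joinG_tt K K' hK hK' hv hv', cenG_joinG_t K K' hK hK' hv hv']
    simp only [joinCovM, Matrix.fromBlocks_apply₂₂, Matrix.of_apply, jA, jV]
    field_simp
    ring

end P254
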