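import Vale.Agent.Lib.P254b.Scale
import Vale.Agent.Lib.P254.Dirichlet

/-! # P254b units J1a, J1b, J1c: integration over a join -/

namespace P254
open MeasureTheory
open scoped Pointwise
variable {ι κ : Type*} [Fintype ι] [Fintype κ]

/-- J1a. Continuous image of `Icc 0 1 ×ˢ K ×ˢ K'`. -/
theorem isCompact_joinG (K : Set (ι → ℝ)) (K' : Set (κ → ℝ)) (hK : IsCompact K)
    (hK' : IsCompact K') : IsCompact (joinG K K') := by
  let g : ℝ × (ι → ℝ) × (κ → ℝ) → ((ι ⊕ κ) ⊕ Fin 1 → ℝ) := fun w =>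
    Sum.elim (Sum.elim ((1 - w.1) • w.2.1) (w.1 • w.2.2)) (fun _ => w.1)
  have hg : Continuous g := by
    refine continuous_pi (fun i => ?_)
    rcases i with (i | j) | k
    · simp only [g, Sum.elim_inl, Pi.smul_apply, smul_eq_mul]; fun_prop
    · simp only [g, Sum.elim_inl, Sum.elim_inr, Pi.smul_apply, smul_eq_mul]; fun_prop
    · simp only [g, Sum.elim_inr]; fun_prop
  have himg : joinG K K' = g '' (Set.Icc (0 : ℝ) 1 ×ˢ K ×ˢ K') := by
    ext z
    constructor
    · rintro ⟨t, ht0, ht1, x, hx, y, hy, rfl⟩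
      exact ⟨(t, x, y), ⟨⟨ht0, ht1⟩, hx, hy⟩, rfl⟩
    · rintro ⟨⟨t, x, y⟩, ⟨⟨ht0, ht1⟩, hx, hy⟩, rfl⟩
      exact ⟨t, ht0, ht1, x, hx, y, hy, rfl⟩
  rw [himg]
  exact (isCompact_Icc.prod (hK.prod hK')).image hg

/-- the transport map -/
noncomputable def joinT (ι κ : Type*) [Fintype ι] [Fintype κ] :
    ((ι ⊕ κ) ⊕ Fin 1 → ℝ) ≃ᵐ ((ι → ℝ) × (κ → ℝ)) × ℝ :=
  (MeasurableEquiv.sumPiEquivProdPi (fun _ : (ι ⊕ κ) ⊕ Fin 1 => ℝ)).trans
    ((MeasurableEquiv.sumPiEquivProdPi (fun _ : ι ⊕ κ => ℝ)).prodCongr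
      (MeasurableEquiv.funUnique (Fin 1) ℝ))

theorem joinT_apply (z : (ι ⊕ κ) ⊕ Fin 1 → ℝ) :
    joinT ι κ z = ((fun i => z (Sum.inl (Sum.inl i)), fun j => z (Sum.inl (Sum.inr j))),
      z (Sum.inr 0)) := rfl

theorem measurePreserving_joinT : MeasurePreserving (joinT ι κ) volume volume :=
  ((volume_measurePreserving_sumPiEquivProdPi (fun _ : ι ⊕ κ => ℝ)).prod
    (volume_preserving_funUnique (Fin 1) ℝ)).comp
    (volume_measurePreserving_sumPiEquivProdPi (fun _ : (ι ⊕ κ) ⊕ Fin 1 => ℝ))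

/-- the image of the join -/
def joinS (K : Set (ι → ℝ)) (K' : Set (κ → ℝ)) : Set (((ι → ℝ) × (κ → ℝ)) × ℝ) :=
  {w | 0 ≤ w.2 ∧ w.2 ≤ 1 ∧ w.1.1 ∈ (1 - w.2) • K ∧ w.1.2 ∈ w.2 • K'}

theorem joinG_eq_preimage (K : Set (ι → ℝ)) (K' : Set (κ → ℝ)) :
    joinG K K' = joinT ι κ ⁻¹' joinS K K' := by
  ext z
  rw [Set.mem_preimage, joinT_apply]
  constructor
  · rintro ⟨t, ht0, ht1, x, hx, y, hy, rfl⟩
    exact ⟨ht0, ht1, Set.smul_mem_smul_set hx, Set.smul_mem_smul_set hy⟩
  · rintro ⟨ht0, ht1, ⟨x, hx, hxz⟩, ⟨y, hy, hyz⟩⟩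
    refine ⟨z (Sum.inr 0), ht0, ht1, x, hx, y, hy, ?_⟩
    funext i
    rcases i with (i | j) | k
    · exact (congrFun hxz i).symm
    · exact (congrFun hyz j).symm
    · rw [Sum.elim_inr, Subsingleton.elim k 0]

theorem continuous_joinT : Continuous (joinT ι κ) := by
  have : (joinT ι κ : ((ι ⊕ κ) ⊕ Fin 1 → ℝ) → ((ι → ℝ) × (κ → ℝ)) × ℝ) = fun z =>
      ((fun i => z (Sum.inl (Sum.inl i)), fun j => z (Sum.inl (Sum.inr j))), z (Sum.inr 0)) :=
    funext joinT_apply
  rw [this]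
  fun_prop

theorem isCompact_joinS (K : Set (ι → ℝ)) (K' : Set (κ → ℝ)) (hK : IsCompact K)
    (hK' : IsCompact K') : IsCompact (joinS K K') := by
  have : joinS K K' = joinT ι κ '' joinG K K' := by
    rw [joinG_eq_preimage, Set.image_preimage_eq _ (joinT ι κ).surjective]
  rw [this]
  exact (isCompact_joinG K K' hK hK').image continuous_joinT

theorem joinG_fubini (K : Set (ι → ℝ)) (K' : Set (κ → ℝ)) (hK : IsCompact K) (hK' : IsCompact K')
    (φ : (ι → ℝ) → ℝ) (ψ : (κ → ℝ) → ℝ) (χ : ℝ → ℝ)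
    (hφ : Continuous φ) (hψ : Continuous ψ) (hχ : Continuous χ) :
    ∫ z in joinG K K', φ (fun i => z (Sum.inl (Sum.inl i))) * ψ (fun j => z (Sum.inl (Sum.inr j)))
        * χ (z (Sum.inr 0))
      = ∫ t in (0 : ℝ)..1, χ t * ((∫ x in (1 - t) • K, φ x) * (∫ y in t • K', ψ y)) := by
  classical
  set F : ((ι → ℝ) × (κ → ℝ)) × ℝ → ℝ := fun w => φ w.1.1 * ψ w.1.2 * χ w.2 with hF
  have hFc : Continuous F := by fun_prop
  have hSc := isCompact_joinS K K' hK hK'
  have h1 : ∫ z in joinG K K', φ (fun i => z (Sum.inl (Sum.inl i)))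
        * ψ (fun j => z (Sum.inl (Sum.inr j))) * χ (z (Sum.inr 0))
      = ∫ w in joinS K K', F w := by
    rw [joinG_eq_preimage]
    exact measurePreserving_joinT.setIntegral_preimage_emb (joinT ι κ).measurableEmbedding F _
  rw [h1, ← integral_indicator hSc.measurableSet]
  have hint : Integrable ((joinS K K').indicator F)
      ((volume : Measure ((ι → ℝ) × (κ → ℝ))).prod (volume : Measure ℝ)) :=
    (integrable_indicator_iff hSc.measurableSet).2 (hFc.continuousOn.integrableOn_compact hSc)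
  have h2 : ∫ w, (joinS K K').indicator F w
      = ∫ t, ∫ p, (joinS K K').indicator F (p, t) := integral_prod_symm _ hint
  rw [h2]
  have h3 : ∀ t : ℝ, ∫ p, (joinS K K').indicator F (p, t)
      = (Set.Icc (0 : ℝ) 1).indicator
        (fun t => χ t * ((∫ x in (1 - t) • K, φ x) * (∫ y in t • K', ψ y))) t := by
    intro t
    by_cases ht : t ∈ Set.Icc (0 : ℝ) 1
    · rw [Set.indicator_of_mem ht]
      have hfun : (fun p : (ι → ℝ) × (κ → ℝ) => (joinS K K').indicator F (p, t))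
          = (((1 - t) • K) ×ˢ (t • K')).indicator (fun p => φ p.1 * ψ p.2 * χ t) := by
        funext p
        by_cases hp : p ∈ ((1 - t) • K) ×ˢ (t • K')
        · rw [Set.indicator_of_mem hp, Set.indicator_of_mem]
          exact ⟨ht.1, ht.2, hp.1, hp.2⟩
        · rw [Set.indicator_of_notMem hp, Set.indicator_of_notMem]
          exact fun h => hp ⟨h.2.2.1, h.2.2.2⟩
      rw [hfun, integral_indicator
        ((hK.smul (1 - t)).measurableSet.prod (hK'.smul t).measurableSet), integral_mul_const]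
      have := setIntegral_prod_mul (μ := (volume : Measure (ι → ℝ)))
        (ν := (volume : Measure (κ → ℝ))) φ ψ ((1 - t) • K) (t • K')
      rw [Measure.volume_eq_prod, this, mul_comm]
    · rw [Set.indicator_of_notMem ht]
      have hfun : (fun p : (ι → ℝ) × (κ → ℝ) => (joinS K K').indicator F (p, t)) = 0 := by
        funext p
        rw [Set.indicator_of_notMem]; rfl
        exact fun h => ht ⟨h.1, h.2.1⟩
      rw [hfun]; simp
  simp only [h3]
  rw [integral_indicator measurableSet_Icc, integral_Icc_eq_integral_Ioc,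
    intervalIntegral.integral_of_le zero_le_one]

theorem joinG_integral (K : Set (ι → ℝ)) (K' : Set (κ → ℝ)) (hK : IsCompact K) (hK' : IsCompact K')
    (φ : (ι → ℝ) → ℝ) (ψ : (κ → ℝ) → ℝ) (a b c : ℕ)
    (hφ : Continuous φ) (hψ : Continuous ψ)
    (hφa : ∀ (s : ℝ) (x : ι → ℝ), φ (s • x) = s ^ a * φ x)
    (hψb : ∀ (s : ℝ) (y : κ → ℝ), ψ (s • y) = s ^ b * ψ y) :
    ∫ z in joinG K K', φ (fun i => z (Sum.inl (Sum.inl i))) * ψ (fun j => z (Sum.inl (Sum.inr j)))
        * (z (Sum.inr 0)) ^ c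
      = (((Fintype.card ι + a).factorial : ℝ) * ((Fintype.card κ + b + c).factorial : ℝ)
          / ((Fintype.card ι + a + (Fintype.card κ + b + c) + 1).factorial : ℝ))
        * ((∫ x in K, φ x) * (∫ y in K', ψ y)) := by
  rw [joinG_fubini K K' hK hK' φ ψ (fun t => t ^ c) hφ hψ (by fun_prop)]
  set A := ∫ x in K, φ x with hA
  set B := ∫ y in K', ψ y with hB
  have h1 : ∫ t in (0 : ℝ)..1, t ^ c * ((∫ x in (1 - t) • K, φ x) * (∫ y in t • K', ψ y))
      = ∫ t in (0 : ℝ)..1,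
        (t ^ (Fintype.card κ + b + c) * (1 - t) ^ (Fintype.card ι + a)) * (A * B) := by
    rw [intervalIntegral.integral_of_le zero_le_one, intervalIntegral.integral_of_le zero_le_one,
      integral_Ioc_eq_integral_Ioo, integral_Ioc_eq_integral_Ioo]
    refine setIntegral_congr_fun measurableSet_Ioo (fun t ht => ?_)
    rw [setIntegral_smul_set K φ a hφa (1 - t) (by linarith [ht.2]),
      setIntegral_smul_set K' ψ b hψb t ht.1]
    ring
  rw [h1, intervalIntegral.integral_mul_const, beta_nat, one_pow, one_mul]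
  have e : Fintype.card κ + b + c + (Fintype.card ι + a) + 1
      = Fintype.card ι + a + (Fintype.card κ + b + c) + 1 := by omega
  rw [e, mul_comm ((Fintype.card κ + b + c).factorial : ℝ)]

end P254
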