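import Vale.Agent.Lib.P254b.JoinInt

/-! # P254b units J2a, J2b, J2c: volume, centroid and second moments of a join

All from `joinG_integral` with `φ, ψ ∈ {1, x i, x i * x j}` and `c ∈ {0,1,2}`; then divide by the volume
(`Nat.factorial_succ`, `push_cast`, `field_simp`).  Here `n = card ι`, `m = card κ`. -/

namespace P254
open MeasureTheory
variable {ι κ : Type*} [Fintype ι] [Fintype κ]

theorem volG_eq_integral_one (K : Set (ι → ℝ)) : volG K = ∫ _x in K, (1 : ℝ) := by
  rw [setIntegral_const]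
  simp [volG, Measure.real]

/-- J2a -/
theorem volG_joinG (K : Set (ι → ℝ)) (K' : Set (κ → ℝ)) (hK : IsCompact K) (hK' : IsCompact K') :
    volG (joinG K K') = ((Fintype.card ι).factorial : ℝ) * ((Fintype.card κ).factorial : ℝ)
      / ((Fintype.card ι + Fintype.card κ + 1).factorial : ℝ) * (volG K * volG K') := by
  have h := joinG_integral K K' hK hK' (fun _ => 1) (fun _ => 1) 0 0 0 continuous_const
    continuous_const (by simp) (by simp)
  rw [volG_eq_integral_one (joinG K K'), volG_eq_integral_one K, volG_eq_integral_one K']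
  simpa using h

/-- the ratio of the Beta factors -/
noncomputable def jF (n m a e : ℕ) : ℝ :=
  (((n + a).factorial : ℝ) * ((m + e).factorial : ℝ) / ((n + a + (m + e) + 1).factorial : ℝ))
    / ((n.factorial : ℝ) * (m.factorial : ℝ) / ((n + m + 1).factorial : ℝ))

theorem fac1 (n : ℕ) : ((n + 1).factorial : ℝ) = ((n : ℝ) + 1) * (n.factorial : ℝ) := by
  rw [Nat.factorial_succ]; push_cast; ring

theorem fac2 (n : ℕ) : ((n + 2).factorial : ℝ) = ((n : ℝ) + 2) * (((n : ℝ) + 1) * (n.factorial : ℝ)) := by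
  rw [Nat.factorial_succ, Nat.factorial_succ]; push_cast; ring

theorem jF_10 (n m : ℕ) : jF n m 1 0 = ((n : ℝ) + 1) / ((n : ℝ) + m + 2) := by
  unfold jF
  have e : n + 1 + (m + 0) + 1 = (n + m + 1) + 1 := by omega
  rw [e, fac1 (n + m + 1), fac1 n, Nat.add_zero]
  have h1 : (n.factorial : ℝ) ≠ 0 := by positivity
  have h2 : (m.factorial : ℝ) ≠ 0 := by positivity
  have h3 : ((n + m + 1).factorial : ℝ) ≠ 0 := by positivity
  have h4 : ((n : ℝ) + m + 2) ≠ 0 := by positivity
  push_cast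
  field_simp
  ring

theorem jF_01 (n m : ℕ) : jF n m 0 1 = ((m : ℝ) + 1) / ((n : ℝ) + m + 2) := by
  unfold jF
  have e : n + 0 + (m + 1) + 1 = (n + m + 1) + 1 := by omega
  rw [e, fac1 (n + m + 1), fac1 m, Nat.add_zero]
  have h1 : (n.factorial : ℝ) ≠ 0 := by positivity
  have h2 : (m.factorial : ℝ) ≠ 0 := by positivity
  have h3 : ((n + m + 1).factorial : ℝ) ≠ 0 := by positivity
  have h4 : ((n : ℝ) + m + 2) ≠ 0 := by positivity
  push_cast
  field_simp
  ring

theorem jF_20 (n m : ℕ) : jF n m 2 0 = ((n : ℝ) + 1) * ((n : ℝ) + 2)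
    / (((n : ℝ) + m + 2) * ((n : ℝ) + m + 3)) := by
  unfold jF
  have e : n + 2 + (m + 0) + 1 = (n + m + 1) + 2 := by omega
  rw [e, fac2 (n + m + 1), fac2 n, Nat.add_zero]
  have h1 : (n.factorial : ℝ) ≠ 0 := by positivity
  have h2 : (m.factorial : ℝ) ≠ 0 := by positivity
  have h3 : ((n + m + 1).factorial : ℝ) ≠ 0 := by positivity
  have h4 : ((n : ℝ) + m + 2) ≠ 0 := by positivity
  have h5 : ((n : ℝ) + m + 3) ≠ 0 := by positivity
  push_cast
  field_simp
  ring

theorem jF_02 (n m : ℕ) : jF n m 0 2 = ((m : ℝ) + 1) * ((m : ℝ) + 2)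
    / (((n : ℝ) + m + 2) * ((n : ℝ) + m + 3)) := by
  unfold jF
  have e : n + 0 + (m + 2) + 1 = (n + m + 1) + 2 := by omega
  rw [e, fac2 (n + m + 1), fac2 m, Nat.add_zero]
  have h1 : (n.factorial : ℝ) ≠ 0 := by positivity
  have h2 : (m.factorial : ℝ) ≠ 0 := by positivity
  have h3 : ((n + m + 1).factorial : ℝ) ≠ 0 := by positivity
  have h4 : ((n : ℝ) + m + 2) ≠ 0 := by positivity
  have h5 : ((n : ℝ) + m + 3) ≠ 0 := by positivity
  push_cast
  field_simp
  ring

theorem jF_11 (n m : ℕ) : jF n m 1 1 = ((n : ℝ) + 1) * ((m : ℝ) + 1)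
    / (((n : ℝ) + m + 2) * ((n : ℝ) + m + 3)) := by
  unfold jF
  have e : n + 1 + (m + 1) + 1 = (n + m + 1) + 2 := by omega
  rw [e, fac2 (n + m + 1), fac1 m, fac1 n]
  have h1 : (n.factorial : ℝ) ≠ 0 := by positivity
  have h2 : (m.factorial : ℝ) ≠ 0 := by positivity
  have h3 : ((n + m + 1).factorial : ℝ) ≠ 0 := by positivity
  have h4 : ((n : ℝ) + m + 2) ≠ 0 := by positivity
  have h5 : ((n : ℝ) + m + 3) ≠ 0 := by positivity
  push_cast
  field_simp
  ring

/-- normalised moments of a join -/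
theorem join_ratio (K : Set (ι → ℝ)) (K' : Set (κ → ℝ)) (hK : IsCompact K) (hK' : IsCompact K')
    (hv : volG K ≠ 0) (hv' : volG K' ≠ 0)
    (φ : (ι → ℝ) → ℝ) (ψ : (κ → ℝ) → ℝ) (a b c : ℕ)
    (hφ : Continuous φ) (hψ : Continuous ψ)
    (hφa : ∀ (s : ℝ) (x : ι → ℝ), φ (s • x) = s ^ a * φ x)
    (hψb : ∀ (s : ℝ) (y : κ → ℝ), ψ (s • y) = s ^ b * ψ y) :
    (∫ z in joinG K K', φ (fun i => z (Sum.inl (Sum.inl i))) * ψ (fun j => z (Sum.inl (Sum.inr j)))
        * (z (Sum.inr 0)) ^ c) / volG (joinG K K')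
      = jF (Fintype.card ι) (Fintype.card κ) a (b + c)
        * (((∫ x in K, φ x) / volG K) * ((∫ y in K', ψ y) / volG K')) := by
  rw [joinG_integral K K' hK hK' φ ψ a b c hφ hψ hφa hψb, volG_joinG K K' hK hK']
  unfold jF
  have h1 : ((Fintype.card ι).factorial : ℝ) ≠ 0 := by positivity
  have h2 : ((Fintype.card κ).factorial : ℝ) ≠ 0 := by positivity
  have h3 : ((Fintype.card ι + Fintype.card κ + 1).factorial : ℝ) ≠ 0 := by positivity
  have h4 : ((Fintype.card ι + a + (Fintype.card κ + (b + c)) + 1).factorial : ℝ) ≠ 0 := by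
    positivity
  rw [← Nat.add_assoc (Fintype.card κ) b c]
  rw [← Nat.add_assoc (Fintype.card κ) b c] at h4
  field_simp

theorem one_ratio (K : Set (ι → ℝ)) (hv : volG K ≠ 0) : (∫ _x in K, (1 : ℝ)) / volG K = 1 := by
  rw [← volG_eq_integral_one, div_self hv]

section
variable (K : Set (ι → ℝ)) (K' : Set (κ → ℝ)) (hK : IsCompact K) (hK' : IsCompact K')
  (hv : volG K ≠ 0) (hv' : volG K' ≠ 0)
include hK hK' hv hv'

/-- J2b -/
theorem cenG_joinG_x (i : ι) : cenG (joinG K K') (Sum.inl (Sum.inl i))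
    = ((Fintype.card ι : ℝ) + 1) / ((Fintype.card ι : ℝ) + Fintype.card κ + 2) * cenG K i := by
  have h := join_ratio K K' hK hK' hv hv' (fun x => x i) (fun _ => 1) 1 0 0 (continuous_apply i)
    continuous_const (by simp) (by simp)
  rw [one_ratio K' hv', jF_10] at h
  simpa [cenG] using h

theorem cenG_joinG_y (j : κ) : cenG (joinG K K') (Sum.inl (Sum.inr j))
    = ((Fintype.card κ : ℝ) + 1) / ((Fintype.card ι : ℝ) + Fintype.card κ + 2) * cenG K' j := by
  have h := join_ratio K K' hK hK' hv hv' (fun _ => 1) (fun y => y j) 0 1 0 continuous_const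
    (continuous_apply j) (by simp) (by simp)
  rw [one_ratio K hv, jF_01] at h
  simpa [cenG] using h

theorem cenG_joinG_t : cenG (joinG K K') (Sum.inr 0)
    = ((Fintype.card κ : ℝ) + 1) / ((Fintype.card ι : ℝ) + Fintype.card κ + 2) := by
  have h := join_ratio K K' hK hK' hv hv' (fun _ => 1) (fun _ => 1) 0 0 1 continuous_const
    continuous_const (by simp) (by simp)
  rw [one_ratio K hv, one_ratio K' hv', jF_01] at h
  simpa [cenG] using h

/-- J2c -/
theorem m2G_joinG_xx (i j : ι) : m2G (joinG K K') (Sum.inl (Sum.inl i)) (Sum.inl (Sum.inl j))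
    = ((Fintype.card ι : ℝ) + 1) * ((Fintype.card ι : ℝ) + 2)
      / (((Fintype.card ι : ℝ) + Fintype.card κ + 2) * ((Fintype.card ι : ℝ) + Fintype.card κ + 3))
      * m2G K i j := by
  have h := join_ratio K K' hK hK' hv hv' (fun x => x i * x j) (fun _ => 1) 2 0 0
    ((continuous_apply i).mul (continuous_apply j))
    continuous_const (by intro s x; simp; ring) (by simp)
  rw [one_ratio K' hv', jF_20] at h
  simpa [m2G] using h

theorem m2G_joinG_yy (i j : κ) : m2G (joinG K K') (Sum.inl (Sum.inr i)) (Sum.inl (Sum.inr j))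
    = ((Fintype.card κ : ℝ) + 1) * ((Fintype.card κ : ℝ) + 2)
      / (((Fintype.card ι : ℝ) + Fintype.card κ + 2) * ((Fintype.card ι : ℝ) + Fintype.card κ + 3))
      * m2G K' i j := by
  have h := join_ratio K K' hK hK' hv hv' (fun _ => 1) (fun y => y i * y j) 0 2 0 continuous_const
    ((continuous_apply i).mul (continuous_apply j)) (by simp) (by intro s x; simp; ring)
  rw [one_ratio K hv, jF_02] at h
  simpa [m2G] using h

theorem m2G_joinG_tt : m2G (joinG K K') (Sum.inr 0) (Sum.inr 0)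
    = ((Fintype.card κ : ℝ) + 1) * ((Fintype.card κ : ℝ) + 2)
      / (((Fintype.card ι : ℝ) + Fintype.card κ + 2) * ((Fintype.card ι : ℝ) + Fintype.card κ + 3)) := by
  have h := join_ratio K K' hK hK' hv hv' (fun _ => 1) (fun _ => 1) 0 0 2 continuous_const
    continuous_const (by simp) (by simp)
  rw [one_ratio K hv, one_ratio K' hv', jF_02] at h
  simpa [m2G, sq] using h

theorem m2G_joinG_xy (i : ι) (j : κ) : m2G (joinG K K') (Sum.inl (Sum.inl i)) (Sum.inl (Sum.inr j))
    = ((Fintype.card ι : ℝ) + 1) * ((Fintype.card κ : ℝ) + 1)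
      / (((Fintype.card ι : ℝ) + Fintype.card κ + 2) * ((Fintype.card ι : ℝ) + Fintype.card κ + 3))
      * (cenG K i * cenG K' j) := by
  have h := join_ratio K K' hK hK' hv hv' (fun x => x i) (fun y => y j) 1 1 0 (continuous_apply i)
    (continuous_apply j) (by simp) (by simp)
  rw [jF_11] at h
  simpa [m2G, cenG] using h

theorem m2G_joinG_xt (i : ι) : m2G (joinG K K') (Sum.inl (Sum.inl i)) (Sum.inr 0)
    = ((Fintype.card ι : ℝ) + 1) * ((Fintype.card κ : ℝ) + 1)
      / (((Fintype.card ι : ℝ) + Fintype.card κ + 2) * ((Fintype.card ι : ℝ) + Fintype.card κ + 3))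
      * cenG K i := by
  have h := join_ratio K K' hK hK' hv hv' (fun x => x i) (fun _ => 1) 1 0 1 (continuous_apply i)
    continuous_const (by simp) (by simp)
  rw [one_ratio K' hv', jF_11] at h
  simpa [m2G, cenG] using h

theorem m2G_joinG_yt (j : κ) : m2G (joinG K K') (Sum.inl (Sum.inr j)) (Sum.inr 0)
    = ((Fintype.card κ : ℝ) + 1) * ((Fintype.card κ : ℝ) + 2)
      / (((Fintype.card ι : ℝ) + Fintype.card κ + 2) * ((Fintype.card ι : ℝ) + Fintype.card κ + 3))
      * cenG K' j := by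
  have h := join_ratio K K' hK hK' hv hv' (fun _ => 1) (fun y => y j) 0 1 1 continuous_const
    (continuous_apply j) (by simp) (by simp)
  rw [one_ratio K hv, jF_02] at h
  simpa [m2G, cenG] using h

end

end P254
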