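import Vale.Agent.Lib.P254b.CovG

/-! # P254b units P1, P2, P3: Cartesian products -/

namespace P254
open MeasureTheory
variable {ι κ : Type*} [Fintype ι] [Fintype κ]

/-- P1a. Continuous image of `K ×ˢ K'`. -/
theorem isCompact_prodG (K : Set (ι → ℝ)) (K' : Set (κ → ℝ)) (hK : IsCompact K)
    (hK' : IsCompact K') : IsCompact (prodG K K') := by
  have h : prodG K K' = (fun p : (ι → ℝ) × (κ → ℝ) => (Sum.elim p.1 p.2 : ι ⊕ κ → ℝ)) ''
      (K ×ˢ K') := by
    ext z
    constructor
    · rintro ⟨x, hx, y, hy, rfl⟩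
      exact ⟨(x, y), ⟨hx, hy⟩, rfl⟩
    · rintro ⟨⟨x, y⟩, ⟨hx, hy⟩, rfl⟩
      exact ⟨x, hx, y, hy, rfl⟩
  rw [h]
  refine (hK.prod hK').image ?_
  refine continuous_pi (fun i => ?_)
  rcases i with i | j
  · exact (continuous_apply i).comp continuous_fst
  · exact (continuous_apply j).comp continuous_snd

/-- P1b.  Transport along `MeasurableEquiv.sumPiEquivProdPi`
(`MeasureTheory.volume_measurePreserving_sumPiEquivProdPi`), then `MeasureTheory.setIntegral_prod_mul`. -/
theorem prodG_integral (K : Set (ι → ℝ)) (K' : Set (κ → ℝ)) (hK : IsCompact K) (hK' : IsCompact K')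
    (φ : (ι → ℝ) → ℝ) (ψ : (κ → ℝ) → ℝ) :
    ∫ z in prodG K K', φ (fun i => z (Sum.inl i)) * ψ (fun j => z (Sum.inr j))
      = (∫ x in K, φ x) * (∫ y in K', ψ y) := by
  set e := MeasurableEquiv.sumPiEquivProdPi (fun _ : ι ⊕ κ => ℝ) with he
  have hpre : prodG K K' = e ⁻¹' (K ×ˢ K') := by
    ext z
    constructor
    · rintro ⟨x, hx, y, hy, rfl⟩
      exact ⟨hx, hy⟩
    · rintro ⟨hx, hy⟩
      refine ⟨_, hx, _, hy, ?_⟩
      funext i
      rcases i with i | j <;> rfl
  have h := (volume_measurePreserving_sumPiEquivProdPi (fun _ : ι ⊕ κ => ℝ)).setIntegral_preimage_emb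
    e.measurableEmbedding (fun p : (ι → ℝ) × (κ → ℝ) => φ p.1 * ψ p.2) (K ×ˢ K')
  rw [hpre]
  refine Eq.trans ?_ (h.trans ?_)
  · rfl
  · rw [Measure.volume_eq_prod]
    exact setIntegral_prod_mul φ ψ K K'

theorem int_oneG {α : Type*} [Fintype α] (K : Set (α → ℝ)) : ∫ _x in K, (1 : ℝ) = volG K := by
  simp [volG, Measure.real]

/-- P2 (all from `prodG_integral`). -/
theorem volG_prodG (K : Set (ι → ℝ)) (K' : Set (κ → ℝ)) (hK : IsCompact K) (hK' : IsCompact K') :
    volG (prodG K K') = volG K * volG K' := by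
  have h := prodG_integral K K' hK hK' (fun _ => 1) (fun _ => 1)
  simp only [mul_one, int_oneG] at h
  exact h

section
variable (K : Set (ι → ℝ)) (K' : Set (κ → ℝ)) (hK : IsCompact K) (hK' : IsCompact K')
  (hv : volG K ≠ 0) (hv' : volG K' ≠ 0)
include hK hK' hv hv'

theorem cenG_prodG_x (i : ι) : cenG (prodG K K') (Sum.inl i) = cenG K i := by
  have h := prodG_integral K K' hK hK' (fun x => x i) (fun _ => 1)
  simp only [mul_one, int_oneG] at h
  unfold cenG
  rw [h, volG_prodG K K' hK hK']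
  field_simp

theorem cenG_prodG_y (j : κ) : cenG (prodG K K') (Sum.inr j) = cenG K' j := by
  have h := prodG_integral K K' hK hK' (fun _ => 1) (fun y => y j)
  simp only [one_mul, int_oneG] at h
  unfold cenG
  rw [h, volG_prodG K K' hK hK']
  field_simp

theorem m2G_prodG_xx (i j : ι) : m2G (prodG K K') (Sum.inl i) (Sum.inl j) = m2G K i j := by
  have h := prodG_integral K K' hK hK' (fun x => x i * x j) (fun _ => 1)
  simp only [mul_one, int_oneG] at h
  unfold m2G
  rw [h, volG_prodG K K' hK hK']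
  field_simp

theorem m2G_prodG_yy (i j : κ) : m2G (prodG K K') (Sum.inr i) (Sum.inr j) = m2G K' i j := by
  have h := prodG_integral K K' hK hK' (fun _ => 1) (fun y => y i * y j)
  simp only [one_mul, int_oneG] at h
  unfold m2G
  rw [h, volG_prodG K K' hK hK']
  field_simp

theorem m2G_prodG_xy (i : ι) (j : κ) :
    m2G (prodG K K') (Sum.inl i) (Sum.inr j) = cenG K i * cenG K' j := by
  have h := prodG_integral K K' hK hK' (fun x => x i) (fun y => y j)
  unfold m2G cenG
  rw [h, volG_prodG K K' hK hK']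
  field_simp

/-- P3. `ext p q`, four cases, `covG_eq` three times, the lemmas above, `m2G_comm`. -/
theorem covG_prodG : covG (prodG K K') = Matrix.fromBlocks (covG K) 0 0 (covG K') := by
  have hc := isCompact_prodG K K' hK hK'
  have hvp : volG (prodG K K') ≠ 0 := by
    rw [volG_prodG K K' hK hK']; exact mul_ne_zero hv hv'
  ext p q
  rw [covG_eq _ hc hvp]
  rcases p with i | i <;> rcases q with j | j
  · rw [Matrix.fromBlocks_apply₁₁, covG_eq K hK hv, m2G_prodG_xx K K' hK hK' hv hv',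
      cenG_prodG_x K K' hK hK' hv hv', cenG_prodG_x K K' hK hK' hv hv']
  · rw [Matrix.fromBlocks_apply₁₂, m2G_prodG_xy K K' hK hK' hv hv',
      cenG_prodG_x K K' hK hK' hv hv', cenG_prodG_y K K' hK hK' hv hv']
    simp
  · rw [Matrix.fromBlocks_apply₂₁, m2G_comm, m2G_prodG_xy K K' hK hK' hv hv',
      cenG_prodG_x K K' hK hK' hv hv', cenG_prodG_y K K' hK hK' hv hv']
    simp [mul_comm]
  · rw [Matrix.fromBlocks_apply₂₂, covG_eq K' hK' hv', m2G_prodG_yy K K' hK hK' hv hv',
      cenG_prodG_y K K' hK hK' hv hv', cenG_prodG_y K K' hK hK' hv hv']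

end

end P254
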