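import Vale.Agent.Lib.P254b.Gen

/-! # P254b unit G2: the covariance matrix is positive semidefinite, so its determinant is `≥ 0`

`∑ i j, a i * covG K i j * a j = (∫ x in K, (∑ i, a i * (x i - cenG K i))^2) / volG K ≥ 0`
(finite sums commute with the integral: all integrands are continuous on the compact `K`);
then `Matrix.PosSemidef.det_nonneg`. -/

namespace P254
open MeasureTheory
variable {ι : Type*} [Fintype ι] [DecidableEq ι]

theorem covG_integrableOn (K : Set (ι → ℝ)) (hK : IsCompact K) (c : ι → ℝ) (i j : ι) :
    IntegrableOn (fun x : ι → ℝ => (x i - c i) * (x j - c j)) K := by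
  apply ContinuousOn.integrableOn_compact hK
  fun_prop

theorem covG_quad (K : Set (ι → ℝ)) (hK : IsCompact K) (a : ι → ℝ) :
    ∑ i, ∑ j, a i * (covG K i j * a j)
      = (∫ x in K, (∑ i, a i * (x i - cenG K i)) ^ 2) / volG K := by
  have h1 : ∀ x : ι → ℝ, (∑ i, a i * (x i - cenG K i)) ^ 2
      = ∑ i, ∑ j, (a i * a j) * ((x i - cenG K i) * (x j - cenG K j)) := by
    intro x
    rw [sq, Finset.sum_mul_sum]
    refine Finset.sum_congr rfl fun i _ => Finset.sum_congr rfl fun j _ => ?_
    ring
  simp_rw [h1]
  rw [integral_finsetSum]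
  · rw [Finset.sum_div]
    refine Finset.sum_congr rfl fun i _ => ?_
    rw [integral_finsetSum]
    · rw [Finset.sum_div]
      refine Finset.sum_congr rfl fun j _ => ?_
      rw [integral_const_mul]
      simp only [covG, Matrix.of_apply]
      ring
    · intro j _
      exact (covG_integrableOn K hK _ i j).const_mul _
  · intro i _
    refine integrable_finsetSum _ fun j _ => ?_
    exact (covG_integrableOn K hK _ i j).const_mul _

theorem covG_posSemidef (K : Set (ι → ℝ)) (hK : IsCompact K) : (covG K).PosSemidef := by
  refine Matrix.PosSemidef.of_dotProduct_mulVec_nonneg ?_ ?_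
  · ext i j
    simp only [Matrix.conjTranspose_apply, covG, Matrix.of_apply, star_trivial]
    congr 1
    refine integral_congr_ae (Filter.Eventually.of_forall fun x => ?_)
    simp only
    ring
  · intro a
    have h : star a ⬝ᵥ (covG K).mulVec a = ∑ i, ∑ j, a i * (covG K i j * a j) := by
      simp only [dotProduct, Matrix.mulVec, star_trivial, Finset.mul_sum]
    rw [h, covG_quad K hK a]
    refine div_nonneg (integral_nonneg fun x => sq_nonneg _) ENNReal.toReal_nonneg

theorem det_covG_nonneg (K : Set (ι → ℝ)) (hK : IsCompact K) : 0 ≤ (covG K).det :=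
  (covG_posSemidef K hK).det_nonneg

theorem isoPowG_nonneg (K : Set (ι → ℝ)) (hK : IsCompact K) : 0 ≤ isoPowG K :=
  div_nonneg (det_covG_nonneg K hK) (sq_nonneg _)

end P254
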