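import Vale.Agent.Lib.P254b.Gen

/-! # P254b unit G3: invariance under reindexing of the coordinates

The map `z ↦ z ∘ e` is `MeasurableEquiv.piCongrLeft`-like and volume preserving
(`MeasureTheory.volume_measurePreserving_piCongrLeft`, or `volume_preserving_piCongrLeft`), so all
integrals transform by substitution; the covariance matrix is reindexed
(`Matrix.det_submatrix_equiv_self` / `Matrix.det_reindex_self`). -/

namespace P254
open MeasureTheory
variable {ι κ : Type*} [Fintype ι] [Fintype κ] [DecidableEq ι] [DecidableEq κ]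

/-- the measurable equivalence `z ↦ z ∘ e` -/
noncomputable def reMap (e : ι ≃ κ) : (κ → ℝ) ≃ᵐ (ι → ℝ) :=
  (MeasurableEquiv.piCongrLeft (fun _ : κ => ℝ) e).symm

omit [Fintype ι] [Fintype κ] [DecidableEq ι] [DecidableEq κ] in
theorem coe_reMap (e : ι ≃ κ) : ⇑(reMap e) = fun z : κ → ℝ => z ∘ e := by
  funext z
  funext i
  rfl

omit [DecidableEq ι] [DecidableEq κ] in
theorem reMap_mp (e : ι ≃ κ) : MeasurePreserving (reMap e) volume volume :=
  (volume_measurePreserving_piCongrLeft (fun _ : κ => ℝ) e).symm _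

theorem setIntegral_reindex (e : ι ≃ κ) (K : Set (κ → ℝ)) (f : (ι → ℝ) → ℝ) :
    ∫ x in (fun z : κ → ℝ => z ∘ e) '' K, f x = ∫ z in K, f (z ∘ e) := by
  have h := (reMap_mp e).setIntegral_image_emb (reMap e).measurableEmbedding f K
  rw [coe_reMap] at h
  exact h

theorem volG_reindex (e : ι ≃ κ) (K : Set (κ → ℝ)) :
    volG ((fun z : κ → ℝ => z ∘ e) '' K) = volG K := by
  unfold volG
  have h := (reMap_mp e).measure_preimage_equiv ((fun z : κ → ℝ => z ∘ e) '' K)
  rw [← coe_reMap, Set.preimage_image_eq _ (reMap e).injective] at h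
  rw [← coe_reMap, h]

/-- from the two previous lemmas. -/
theorem isoPowG_reindex (e : ι ≃ κ) (K : Set (κ → ℝ)) :
    isoPowG ((fun z : κ → ℝ => z ∘ e) '' K) = isoPowG K := by
  unfold isoPowG
  rw [volG_reindex]
  congr 1
  have hc : ∀ i, cenG ((fun z : κ → ℝ => z ∘ e) '' K) i = cenG K (e i) := by
    intro i
    unfold cenG
    rw [volG_reindex, setIntegral_reindex e K (fun x => x i)]
    rfl
  have hcov : covG ((fun z : κ → ℝ => z ∘ e) '' K) = (covG K).submatrix e e := by
    ext i j
    unfold covG
    simp only [Matrix.of_apply, Matrix.submatrix_apply]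
    rw [volG_reindex, hc, hc,
      setIntegral_reindex e K (fun x => (x i - cenG K (e i)) * (x j - cenG K (e j)))]
    rfl
  rw [hcov, Matrix.det_submatrix_equiv_self]

end P254
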