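import Vale.Agent.Lib.P254b.Const
import Vale.Agent.Lib.P254b.ProdInt
import Vale.Agent.Lib.P254b.Psd
import Vale.Agent.Lib.P254b.Reindex
import Vale.Agent.Lib.P254b.Convex

/-! # P254 part 2: assembly (joins, pyramids, products) -/

namespace P254
open MeasureTheory

theorem cN_pos' (n : ℕ) : 0 < cN n := by unfold cN; positivity

theorem jV_pos (n m : ℕ) : 0 < jV n m := by unfold jV; positivity

section
variable {ι κ : Type*} [Fintype ι] [Fintype κ] [DecidableEq ι] [DecidableEq κ]

theorem isoPowG_joinG (K : Set (ι → ℝ)) (K' : Set (κ → ℝ)) (hK : IsCompact K) (hK' : IsCompact K')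
    (hv : volG K ≠ 0) (hv' : volG K' ≠ 0) :
    isoPowG (joinG K K') / cN (Fintype.card ι + Fintype.card κ + 1)
      = (isoPowG K / cN (Fintype.card ι)) * (isoPowG K' / cN (Fintype.card κ)) := by
  have h1 := cN_join (Fintype.card ι) (Fintype.card κ)
  have hc1 := cN_pos' (Fintype.card ι)
  have hc2 := cN_pos' (Fintype.card κ)
  have hc3 := cN_pos' (Fintype.card ι + Fintype.card κ + 1)
  unfold isoPowG
  rw [covG_joinG K K' hK hK' hv hv', det_joinCovM _ _ _ (jV_pos _ _).ne', volG_joinG K K' hK hK',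
    ← h1]
  have hf1 : ((Fintype.card ι).factorial : ℝ) ≠ 0 := by positivity
  have hf2 : ((Fintype.card κ).factorial : ℝ) ≠ 0 := by positivity
  have hf3 : ((Fintype.card ι + Fintype.card κ + 1).factorial : ℝ) ≠ 0 := by positivity
  have hV := (jV_pos (Fintype.card ι) (Fintype.card κ)).ne'
  have hA1 : jA (Fintype.card ι) (Fintype.card κ) ≠ 0 := by unfold jA; positivity
  have hA2 : jA (Fintype.card κ) (Fintype.card ι) ≠ 0 := by unfold jA; positivity
  field_simp

theorem isoPowG_prodG (K : Set (ι → ℝ)) (K' : Set (κ → ℝ)) (hK : IsCompact K) (hK' : IsCompact K')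
    (hv : volG K ≠ 0) (hv' : volG K' ≠ 0) :
    isoPowG (prodG K K') = isoPowG K * isoPowG K' := by
  unfold isoPowG
  rw [covG_prodG K K' hK hK' hv hv', Matrix.det_fromBlocks_zero₂₁, volG_prodG K K' hK hK']
  field_simp

end

/-! ### statements in `ℝ^n = Fin n → ℝ` -/

theorem isoPow_join {n m : ℕ} (K : Set (E n)) (K' : Set (E m)) (hK : IsCompact K)
    (hK' : IsCompact K') (hv : 0 < vol K) (hv' : 0 < vol K') :
    isoPow (join K K') / cN (n + m + 1) = (isoPow K / cN n) * (isoPow K' / cN m) := by
  have h := isoPowG_joinG K K' hK hK' hv.ne' hv'.ne'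
  rw [← join_reindex, isoPowG_reindex] at h
  simp only [Fintype.card_fin] at h
  exact h

theorem isoPow_prod {n m : ℕ} (K : Set (E n)) (K' : Set (E m)) (hK : IsCompact K)
    (hK' : IsCompact K') (hv : 0 < vol K) (hv' : 0 < vol K') :
    isoPow (prod K K') = isoPow K * isoPow K' := by
  have h := isoPowG_prodG K K' hK hK' hv.ne' hv'.ne'
  rw [← prod_reindex, isoPowG_reindex] at h
  exact h

theorem vol_join {n m : ℕ} (K : Set (E n)) (K' : Set (E m)) (hK : IsCompact K)
    (hK' : IsCompact K') :
    vol (join K K') = (n.factorial : ℝ) * (m.factorial : ℝ) / ((n + m + 1).factorial : ℝ)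
      * (vol K * vol K') := by
  have h := volG_joinG K K' hK hK'
  rw [← join_reindex, volG_reindex] at h
  simp only [Fintype.card_fin] at h
  exact h

theorem vol_prod {n m : ℕ} (K : Set (E n)) (K' : Set (E m)) (hK : IsCompact K)
    (hK' : IsCompact K') : vol (prod K K') = vol K * vol K' := by
  have h := volG_prodG K K' hK hK'
  rw [← prod_reindex, volG_reindex] at h
  exact h

theorem isoPow_pyramid {n : ℕ} (K : Set (E n)) (hK : IsCompact K) (hv : 0 < vol K) :
    isoPow (pyramid K) / cN (n + 1) = isoPow K / cN n := by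
  have h := isoPow_join K (Set.univ : Set (E 0)) hK isCompact_univ hv
    (by rw [vol_univ_zero]; norm_num)
  rw [isoPow_univ_zero, cN_zero] at h
  rw [pyramid_eq_join]
  simpa using h

theorem vol_pyramid {n : ℕ} (K : Set (E n)) (hK : IsCompact K) :
    vol (pyramid K) = vol K / ((n : ℝ) + 1) := by
  have h := vol_join K (Set.univ : Set (E 0)) hK isCompact_univ
  rw [vol_univ_zero] at h
  rw [pyramid_eq_join, h]
  have : ((n + 0 + 1).factorial : ℝ) = ((n : ℝ) + 1) * (n.factorial : ℝ) := by
    simp [Nat.factorial_succ]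
  rw [this]
  have hf : (n.factorial : ℝ) ≠ 0 := by positivity
  have hn : ((n : ℝ) + 1) ≠ 0 := by positivity
  simp
  field_simp

theorem isoPow_nonneg {n : ℕ} (K : Set (E n)) (hK : IsCompact K) : 0 ≤ isoPow K :=
  isoPowG_nonneg K hK

/-- `L_K ≤ L_{Δ_n}` in terms of `L^{2n}`. -/
theorem isoConst_le_iff {n : ℕ} (hn : 1 ≤ n) (K : Set (E n)) (hK : IsCompact K) :
    isoConst K ≤ simplexConst n ↔ isoPow K ≤ cN n := by
  have hn' : (0 : ℝ) < n := by exact_mod_cast hn
  have hexp : (0 : ℝ) < 1 / (2 * (n : ℝ)) := by positivity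
  unfold isoConst simplexConst
  exact Real.rpow_le_rpow_iff (isoPow_nonneg K hK) (cN_pos' n).le hexp

theorem isoConst_lt_iff {n : ℕ} (hn : 1 ≤ n) (K : Set (E n)) (hK : IsCompact K) :
    isoConst K < simplexConst n ↔ isoPow K < cN n := by
  have hn' : (0 : ℝ) < n := by exact_mod_cast hn
  have hexp : (0 : ℝ) < 1 / (2 * (n : ℝ)) := by positivity
  unfold isoConst simplexConst
  exact Real.rpow_lt_rpow_iff (isoPow_nonneg K hK) (cN_pos' n).le hexp

/-- Main theorem of part 2. -/
theorem main2 :
    -- joins: exact multiplicativity, and closure of the conjectured inequality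
    (∀ (n m : ℕ) (K : Set (E n)) (K' : Set (E m)), IsCompact K → IsCompact K' → 0 < vol K →
      0 < vol K' →
      isoPow (join K K') / cN (n + m + 1) = (isoPow K / cN n) * (isoPow K' / cN m) ∧
      IsCompact (join K K') ∧ 0 < vol (join K K') ∧
      (Convex ℝ K → Convex ℝ K' → Convex ℝ (join K K')) ∧
      (1 ≤ n → 1 ≤ m → isoConst K ≤ simplexConst n → isoConst K' ≤ simplexConst m →
        isoConst (join K K') ≤ simplexConst (n + m + 1))) ∧
    -- pyramids: the normalised constant does not change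
    (∀ (n : ℕ) (K : Set (E n)), IsCompact K → 0 < vol K →
      isoPow (pyramid K) / cN (n + 1) = isoPow K / cN n ∧
      IsCompact (pyramid K) ∧ 0 < vol (pyramid K) ∧ (Convex ℝ K → Convex ℝ (pyramid K)) ∧
      (1 ≤ n → (isoConst (pyramid K) ≤ simplexConst (n + 1) ↔ isoConst K ≤ simplexConst n))) ∧
    -- products
    (∀ (n m : ℕ) (K : Set (E n)) (K' : Set (E m)), IsCompact K → IsCompact K' → 0 < vol K →
      0 < vol K' →
      isoPow (prod K K') = isoPow K * isoPow K' ∧
      IsCompact (prod K K') ∧ 0 < vol (prod K K') ∧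
      (Convex ℝ K → Convex ℝ K' → Convex ℝ (prod K K')) ∧
      (1 ≤ n → 1 ≤ m → isoConst K ≤ simplexConst n → isoConst K' ≤ simplexConst m →
        isoConst (prod K K') < simplexConst (n + m))) := by
  refine ⟨?_, ?_, ?_⟩
  · intro n m K K' hK hK' hv hv'
    have hJ := isCompact_join K K' hK hK'
    have hf := isoPow_join K K' hK hK' hv hv'
    refine ⟨hf, hJ, ?_, convex_join K K', ?_⟩
    · rw [vol_join K K' hK hK']; positivity
    · intro hn hm h1 h2
      rw [isoConst_le_iff hn K hK] at h1
      rw [isoConst_le_iff hm K' hK'] at h2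
      rw [isoConst_le_iff (by omega) _ hJ]
      have a1 : isoPow K / cN n ≤ 1 := (div_le_one (cN_pos' n)).2 h1
      have a2 : isoPow K' / cN m ≤ 1 := (div_le_one (cN_pos' m)).2 h2
      have b1 : 0 ≤ isoPow K / cN n := div_nonneg (isoPow_nonneg K hK) (cN_pos' n).le
      have b2 : 0 ≤ isoPow K' / cN m := div_nonneg (isoPow_nonneg K' hK') (cN_pos' m).le
      have : isoPow (join K K') / cN (n + m + 1) ≤ 1 := by
        rw [hf]; exact mul_le_one₀ a1 b2 a2
      exact (div_le_one (cN_pos' _)).1 this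
  · intro n K hK hv
    have hP : IsCompact (pyramid K) := by
      rw [pyramid_eq_join]; exact isCompact_join K _ hK isCompact_univ
    have hf := isoPow_pyramid K hK hv
    refine ⟨hf, hP, ?_, ?_, ?_⟩
    · rw [vol_pyramid K hK]; positivity
    · intro hc; rw [pyramid_eq_join]; exact convex_join K _ hc convex_univ
    · intro hn
      rw [isoConst_le_iff hn K hK, isoConst_le_iff (by omega) _ hP,
        ← div_le_one (cN_pos' (n + 1)), hf, div_le_one (cN_pos' n)]
  · intro n m K K' hK hK' hv hv'
    have hP := isCompact_prod K K' hK hK'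
    have hf := isoPow_prod K K' hK hK' hv hv'
    refine ⟨hf, hP, ?_, convex_prod K K', ?_⟩
    · rw [vol_prod K K' hK hK']; positivity
    · intro hn hm h1 h2
      rw [isoConst_le_iff hn K hK] at h1
      rw [isoConst_le_iff hm K' hK'] at h2
      rw [isoConst_lt_iff (by omega) _ hP, hf]
      calc isoPow K * isoPow K' ≤ cN n * cN m :=
            mul_le_mul h1 h2 (isoPow_nonneg K' hK') (cN_pos' n).le
        _ < cN (n + m) := cN_mul_lt n m hn hm

end P254
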