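import Vale.Agent.Lib.P254b.SimpA

/-! # P254b unit X1b: the join of two hulls -/

namespace P254
open MeasureTheory

/-- X1b.  `⊇`: `convexHull_min` with `convex_join` (`t = 0`, resp. `t = 1`; both hulls are nonempty).
`⊆`: `((1-t)x, ty, t) = (1-t) (x,0,0) + t (0,y,1)`, and `x ↦ (x,0,0)`, `y ↦ (0,y,1)` are affine maps, so
they send hulls into the hull (`AffineMap.image_convexHull`, or `convexHull_min` applied to the
preimage, which is convex). -/
theorem join_convexHull {n m : ℕ} (b : Fin (n + 1) → E n) (b' : Fin (m + 1) → E m) :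
    join (convexHull ℝ (Set.range b)) (convexHull ℝ (Set.range b'))
      = convexHull ℝ (Set.range (joinVert b b')) := by
  apply Set.Subset.antisymm
  · rintro z ⟨t, ht0, ht1, x, hx, y, hy, rfl⟩
    have hH : Convex ℝ (convexHull ℝ (Set.range (joinVert b b'))) := convex_convexHull ℝ _
    -- the two affine embeddings
    have h1 : convexHull ℝ (Set.range b) ⊆ {x : E n |
        Fin.append (Fin.append x (0 : E m)) (fun _ : Fin 1 => (0 : ℝ))
          ∈ convexHull ℝ (Set.range (joinVert b b'))} := by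
      refine convexHull_min ?_ ?_
      · rintro _ ⟨i, rfl⟩
        exact subset_convexHull ℝ _ ⟨Sum.inl i, rfl⟩
      · intro x₁ hx₁ x₂ hx₂ α β hα hβ hαβ
        have h := hH hx₁ hx₂ hα hβ hαβ
        rw [append_lin_V, append_lin_V] at h
        have e1 : α • (0 : E m) + β • (0 : E m) = 0 := by simp
        have e2 : (α • (fun _ : Fin 1 => (0 : ℝ)) + β • (fun _ : Fin 1 => (0 : ℝ)))
            = (fun _ : Fin 1 => (0 : ℝ)) := by
          funext i
          simp
        rw [e1, e2] at h
        exact h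
    have h2 : convexHull ℝ (Set.range b') ⊆ {y : E m |
        Fin.append (Fin.append (0 : E n) y) (fun _ : Fin 1 => (1 : ℝ))
          ∈ convexHull ℝ (Set.range (joinVert b b'))} := by
      refine convexHull_min ?_ ?_
      · rintro _ ⟨j, rfl⟩
        exact subset_convexHull ℝ _ ⟨Sum.inr j, rfl⟩
      · intro y₁ hy₁ y₂ hy₂ α β hα hβ hαβ
        have h := hH hy₁ hy₂ hα hβ hαβ
        rw [append_lin_V, append_lin_V] at h
        have e1 : α • (0 : E n) + β • (0 : E n) = 0 := by simp
        have e2 : (α • (fun _ : Fin 1 => (1 : ℝ)) + β • (fun _ : Fin 1 => (1 : ℝ)))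
            = (fun _ : Fin 1 => (1 : ℝ)) := by
          funext i
          simp [hαβ]
        rw [e1, e2] at h
        exact h
    have h := hH (h1 hx) (h2 hy) (sub_nonneg.mpr ht1) ht0 (by ring)
    rw [append_lin_V, append_lin_V] at h
    have e1 : (1 - t) • x + t • (0 : E n) = (1 - t) • x := by simp
    have e2 : (1 - t) • (0 : E m) + t • y = t • y := by simp
    have e3 : ((1 - t) • (fun _ : Fin 1 => (0 : ℝ)) + t • (fun _ : Fin 1 => (1 : ℝ)))
        = (fun _ : Fin 1 => t) := by
      funext i
      simp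
    rw [e1, e2, e3] at h
    exact h
  · refine convexHull_min ?_ (convex_join _ _ (convex_convexHull ℝ _) (convex_convexHull ℝ _))
    rintro _ ⟨i | j, rfl⟩
    · refine ⟨0, le_rfl, zero_le_one, b i, subset_convexHull ℝ _ ⟨i, rfl⟩, b' 0,
        subset_convexHull ℝ _ ⟨0, rfl⟩, ?_⟩
      simp [joinVert]
    · refine ⟨1, zero_le_one, le_rfl, b 0, subset_convexHull ℝ _ ⟨0, rfl⟩, b' j,
        subset_convexHull ℝ _ ⟨j, rfl⟩, ?_⟩
      simp [joinVert]

end P254
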