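import Vale.Agent.Lib.P254b.Convex

/-! # P254b units X1c, X3 -/

namespace P254
open MeasureTheory

/-- X1c. the one-point space is a `0`-simplex. -/
theorem isSimplex_univ_zero : IsSimplex (Set.univ : Set (E 0)) := by
  have : Subsingleton (Fin (0 + 1)) := (inferInstance : Subsingleton (Fin 1))
  refine ⟨fun _ => 0, affineIndependent_of_subsingleton ℝ _, ?_⟩
  ext x
  simp only [Set.mem_univ, true_iff]
  have hx : x = 0 := Subsingleton.elim _ _
  rw [hx]
  exact subset_convexHull ℝ _ ⟨0, rfl⟩

/-- X3.  `→`: `IsOpen.measure_pos`, `IsCompact.measure_lt_top`.  `←`: if the interior is empty then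
`K ⊆ frontier K`, which is a null set (`Convex.addHaar_frontier`). -/
theorem interior_nonempty_iff_vol_pos {n : ℕ} (K : Set (E n)) (hK : IsCompact K)
    (hc : Convex ℝ K) : (interior K).Nonempty ↔ 0 < vol K := by
  constructor
  · intro h
    unfold vol
    refine ENNReal.toReal_pos ?_ hK.measure_lt_top.ne
    have h1 : 0 < volume (interior K) := isOpen_interior.measure_pos volume h
    exact (lt_of_lt_of_le h1 (measure_mono interior_subset)).ne'
  · intro h
    by_contra hne
    rw [Set.not_nonempty_iff_eq_empty] at hne
    have h1 : K ⊆ frontier K := by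
      intro x hx
      rw [frontier, hne, Set.sdiff_empty]
      exact subset_closure hx
    have h2 : volume K = 0 := measure_mono_null h1 (hc.addHaar_frontier volume)
    unfold vol at h
    rw [h2] at h
    simp at h

end P254
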