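import Vale.Agent.Lib.P254b.Convex

/-! # P254b unit X2: if the pyramid over K is a simplex then so is K -/

namespace P254
open MeasureTheory

theorem mem_hull_range_iff_D {ι F : Type*} [Fintype ι] [AddCommGroup F] [Module ℝ F] (v : ι → F) (x : F) :
    x ∈ convexHull ℝ (Set.range v) ↔
      ∃ w : ι → ℝ, (∀ i, 0 ≤ w i) ∧ ∑ i, w i = 1 ∧ ∑ i, w i • v i = x := by
  classical
  constructor
  · intro hx
    rw [convexHull_range_eq_exists_affineCombination] at hx
    obtain ⟨s, w, hw0, hw1, hx⟩ := hx
    rw [Finset.affineCombination_eq_linear_combination _ _ _ hw1] at hx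
    refine ⟨fun i => if i ∈ s then w i else 0, fun i => ?_, ?_, ?_⟩
    · by_cases hi : i ∈ s
      · simp [hi, hw0 i hi]
      · simp [hi]
    · rw [← hw1]
      simp [Finset.sum_ite_mem]
    · rw [← hx]
      simp [ite_smul, Finset.sum_ite_mem]
  · rintro ⟨w, hw0, hw1, hx⟩
    exact mem_convexHull_of_exists_fintype w v hw0 hw1 (fun i => Set.mem_range_self i) hx

/-- first `n` coordinates -/
def piD {n : ℕ} (z : E (n + 1)) : E n := fun j => z (Fin.castAdd 1 j)

/-- the embedding `x ↦ (x, 0)` as a linear map -/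
def iotaD (n : ℕ) : E n →ₗ[ℝ] E (n + 1) where
  toFun x := Fin.append x (fun _ : Fin 1 => (0 : ℝ))
  map_add' x y := by
    ext j
    refine Fin.addCases (fun i => ?_) (fun i => ?_) j <;> simp
  map_smul' c x := by
    ext j
    refine Fin.addCases (fun i => ?_) (fun i => ?_) j <;> simp

theorem piD_append {n : ℕ} (x : E n) (s : Fin 1 → ℝ) : piD (Fin.append x s) = x := by
  ext j
  simp [piD]

theorem last_append_D {n : ℕ} (x : E n) (s : Fin 1 → ℝ) :
    (Fin.append x s : E (n + 1)) (Fin.natAdd n 0) = s 0 := by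
  simp

theorem eq_iotaD_of_last {n : ℕ} (z : E (n + 1)) (hz : z (Fin.natAdd n 0) = 0) :
    z = iotaD n (piD z) := by
  ext j
  refine Fin.addCases (fun i => ?_) (fun i => ?_) j
  · simp [iotaD, piD]
  · have : i = 0 := Subsingleton.elim _ _
    subst this
    simp [iotaD, hz]

theorem sum_subtype_D {ι M : Type*} [Fintype ι] [AddCommMonoid M] (p : ι → Prop) [DecidablePred p]
    (f : ι → M) (h : ∀ i, ¬ p i → f i = 0) : ∑ i : Subtype p, f i.1 = ∑ i, f i := by
  rw [← Finset.sum_subtype (Finset.univ.filter p) (by simp) f]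
  apply Finset.sum_filter_of_ne
  intro i _ hi
  by_contra hp
  exact hi (h i hp)

theorem isSimplex_of_pyramid {n : ℕ} (K : Set (E n)) (hint : (interior K).Nonempty)
    (h : IsSimplex (pyramid K)) : IsSimplex K := by
  classical
  obtain ⟨b, hb, hK⟩ := h
  have hpos : ∀ z ∈ pyramid K, 0 ≤ z (Fin.natAdd n 0) := by
    rintro z ⟨t, ht0, ht1, x, hx, rfl⟩
    rw [last_append_D]
    exact ht0
  have hbpos : ∀ i, 0 ≤ b i (Fin.natAdd n 0) := fun i =>
    hpos _ (by rw [hK]; exact subset_convexHull ℝ _ (Set.mem_range_self i))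
  let c : {i // b i (Fin.natAdd n 0) = 0} → E n := fun i => piD (b i.1)
  have hbc : ∀ i : {i // b i (Fin.natAdd n 0) = 0}, b i.1 = iotaD n (c i) :=
    fun i => eq_iotaD_of_last _ i.2
  have hc : AffineIndependent ℝ c := by
    apply AffineIndependent.of_comp (iotaD n).toAffineMap
    have : (iotaD n).toAffineMap ∘ c = b ∘ (Function.Embedding.subtype _) := by
      ext1 i
      exact (hbc i).symm
    rw [this]
    exact hb.comp_embedding _
  have hKc : K = convexHull ℝ (Set.range c) := by
    ext x
    rw [mem_hull_range_iff_D]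
    constructor
    · intro hx
      have hz : iotaD n x ∈ pyramid K := ⟨0, le_rfl, zero_le_one, x, hx, by simp [iotaD]⟩
      rw [hK, mem_hull_range_iff_D] at hz
      obtain ⟨w, hw0, hw1, hwz⟩ := hz
      have hτz : ∑ i, w i * b i (Fin.natAdd n 0) = 0 := by
        have := congrFun hwz (Fin.natAdd n 0)
        simpa [iotaD, Finset.sum_apply] using this
      have hzero : ∀ i, w i * b i (Fin.natAdd n 0) = 0 := fun i =>
        (Finset.sum_eq_zero_iff_of_nonneg (fun i _ => mul_nonneg (hw0 i) (hbpos i))).1 hτz i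
          (Finset.mem_univ i)
      have hw_off : ∀ i, ¬ b i (Fin.natAdd n 0) = 0 → w i = 0 := fun i hi =>
        (mul_eq_zero.1 (hzero i)).resolve_right hi
      refine ⟨fun i => w i.1, fun i => hw0 _, ?_, ?_⟩
      · rw [← hw1]
        exact sum_subtype_D _ w hw_off
      · have e1 := sum_subtype_D (fun i => b i (Fin.natAdd n 0) = 0) (fun i => w i • piD (b i))
          (fun i hi => by rw [hw_off i hi, zero_smul])
        refine e1.trans ?_
        ext j
        have := congrFun hwz (Fin.castAdd 1 j)
        simpa [iotaD, piD, Finset.sum_apply] using this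
    · rintro ⟨w, hw0, hw1, rfl⟩
      have hz : (∑ i, w i • b i.1) ∈ convexHull ℝ (Set.range b) :=
        mem_convexHull_of_exists_fintype w (fun i => b i.1) hw0 hw1
          (fun i => Set.mem_range_self _) rfl
      rw [← hK] at hz
      obtain ⟨t, ht0, ht1, x', hx', hzx⟩ := hz
      have e1 : (∑ i, w i • b i.1) = iotaD n (∑ i, w i • c i) := by
        rw [map_sum]
        refine Finset.sum_congr rfl (fun i _ => ?_)
        rw [map_smul, ← hbc i]
      rw [e1] at hzx
      have ht : t = 0 := by
        have := congrFun hzx (Fin.natAdd n 0)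
        rw [last_append_D] at this
        simpa [iotaD] using this.symm
      have e2 := congrArg piD hzx
      rw [piD_append] at e2
      have e3 : piD (iotaD n (∑ i, w i • c i)) = ∑ i, w i • c i :=
        piD_append (∑ i, w i • c i) (fun _ : Fin 1 => (0 : ℝ))
      rw [e3, ht] at e2
      rw [e2]
      simpa using hx'
  have hspan : affineSpan ℝ (Set.range c) = ⊤ := by
    rw [← interior_convexHull_nonempty_iff_affineSpan_eq_top, ← hKc]
    exact hint
  have hcard : Fintype.card {i // b i (Fin.natAdd n 0) = 0} = n + 1 := by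
    have := hc.affineSpan_eq_top_iff_card_eq_finrank_add_one.1 hspan
    simpa using this
  let e := (Fintype.equivFinOfCardEq hcard).symm
  refine ⟨c ∘ e, hc.comp_embedding e.toEmbedding, ?_⟩
  rw [hKc, e.surjective.range_comp]

end P254
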