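import Vale.Agent.Lib.P254b.Main2
import Vale.Agent.Lib.P254b.SimpB
import Vale.Agent.Lib.P254b.SimpC
import Vale.Agent.Lib.P254b.SimpD

/-! # P254b part 3: equality cases; the full conjecture in dimension `n+1` implies it in dimension `n` -/

namespace P254
open MeasureTheory

/-- The join of two simplices is a simplex. -/
theorem isSimplex_join {n m : ℕ} (K : Set (E n)) (K' : Set (E m)) (hK : IsSimplex K)
    (hK' : IsSimplex K') : IsSimplex (join K K') := by
  obtain ⟨b, hb, rfl⟩ := hK
  obtain ⟨b', hb', rfl⟩ := hK'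
  have e : Fin (n + m + 1 + 1) ≃ Fin (n + 1) ⊕ Fin (m + 1) :=
    (finCongr (by omega : n + m + 1 + 1 = (n + 1) + (m + 1))).trans finSumFinEquiv.symm
  refine ⟨joinVert b b' ∘ e, ?_, ?_⟩
  · exact (affineIndependent_joinVert b b' hb hb').comp_embedding e.toEmbedding
  · rw [join_convexHull, e.surjective.range_comp]

theorem isSimplex_pyramid {n : ℕ} (K : Set (E n)) (hK : IsSimplex K) : IsSimplex (pyramid K) := by
  rw [pyramid_eq_join]
  exact isSimplex_join K _ hK isSimplex_univ_zero

theorem isoConst_eq_iff {n : ℕ} (hn : 1 ≤ n) (K : Set (E n)) (hK : IsCompact K) :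
    isoConst K = simplexConst n ↔ isoPow K = cN n := by
  constructor
  · intro h
    have h1 := (isoConst_le_iff hn K hK).1 h.le
    have h2 : ¬ isoPow K < cN n := fun hlt => by
      have := (isoConst_lt_iff hn K hK).2 hlt
      exact absurd h this.ne
    exact le_antisymm h1 (not_lt.1 h2)
  · intro h
    unfold isoConst simplexConst
    rw [h]

/-- The conjecture (inequality and equality clause) for one set. -/
def Strong {n : ℕ} (K : Set (E n)) : Prop :=
  isoConst K ≤ simplexConst n ∧ (isoConst K = simplexConst n → IsSimplex K)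

theorem strong_join {n m : ℕ} (hn : 1 ≤ n) (hm : 1 ≤ m) (K : Set (E n)) (K' : Set (E m))
    (hK : IsCompact K) (hK' : IsCompact K') (hv : 0 < vol K) (hv' : 0 < vol K')
    (h : Strong K) (h' : Strong K') : Strong (join K K') := by
  have hJ := isCompact_join K K' hK hK'
  have hf := isoPow_join K K' hK hK' hv hv'
  have h1 := (isoConst_le_iff hn K hK).1 h.1
  have h2 := (isoConst_le_iff hm K' hK').1 h'.1
  have a1 : isoPow K / cN n ≤ 1 := (div_le_one (cN_pos' n)).2 h1
  have a2 : isoPow K' / cN m ≤ 1 := (div_le_one (cN_pos' m)).2 h2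
  have b1 : 0 ≤ isoPow K / cN n := div_nonneg (isoPow_nonneg K hK) (cN_pos' n).le
  have b2 : 0 ≤ isoPow K' / cN m := div_nonneg (isoPow_nonneg K' hK') (cN_pos' m).le
  refine ⟨?_, ?_⟩
  · rw [isoConst_le_iff (by omega) _ hJ]
    have : isoPow (join K K') / cN (n + m + 1) ≤ 1 := by
      rw [hf]; exact mul_le_one₀ a1 b2 a2
    exact (div_le_one (cN_pos' _)).1 this
  · intro heq
    rw [isoConst_eq_iff (by omega) _ hJ] at heq
    have hone : (isoPow K / cN n) * (isoPow K' / cN m) = 1 := by
      rw [← hf, heq]; exact div_self (cN_pos' _).ne'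
    have c1 : isoPow K / cN n = 1 := by
      refine le_antisymm a1 ?_
      by_contra hlt
      rw [not_le] at hlt
      have : (isoPow K / cN n) * (isoPow K' / cN m) < 1 := by
        calc (isoPow K / cN n) * (isoPow K' / cN m) ≤ (isoPow K / cN n) * 1 :=
              mul_le_mul_of_nonneg_left a2 b1
          _ < 1 := by simpa using hlt
      exact absurd hone this.ne
    have c2 : isoPow K' / cN m = 1 := by rw [c1, one_mul] at hone; exact hone
    have d1 : isoPow K = cN n := by
      have := (div_eq_one_iff_eq (cN_pos' n).ne').1 c1; exact this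
    have d2 : isoPow K' = cN m := by
      have := (div_eq_one_iff_eq (cN_pos' m).ne').1 c2; exact this
    exact isSimplex_join K K' (h.2 ((isoConst_eq_iff hn K hK).2 d1))
      (h'.2 ((isoConst_eq_iff hm K' hK').2 d2))

theorem isCompact_pyramid {n : ℕ} (K : Set (E n)) (hK : IsCompact K) : IsCompact (pyramid K) := by
  rw [pyramid_eq_join]; exact isCompact_join K _ hK isCompact_univ

theorem convex_pyramid {n : ℕ} (K : Set (E n)) (hc : Convex ℝ K) : Convex ℝ (pyramid K) := by
  rw [pyramid_eq_join]; exact convex_join K _ hc convex_univ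

theorem vol_pyramid_pos {n : ℕ} (K : Set (E n)) (hK : IsCompact K) (hv : 0 < vol K) :
    0 < vol (pyramid K) := by
  rw [vol_pyramid K hK]; positivity

theorem isoConst_pyramid_le_iff {n : ℕ} (hn : 1 ≤ n) (K : Set (E n)) (hK : IsCompact K)
    (hv : 0 < vol K) :
    isoConst (pyramid K) ≤ simplexConst (n + 1) ↔ isoConst K ≤ simplexConst n := by
  rw [isoConst_le_iff hn K hK, isoConst_le_iff (by omega) _ (isCompact_pyramid K hK),
    ← div_le_one (cN_pos' (n + 1)), isoPow_pyramid K hK hv, div_le_one (cN_pos' n)]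

theorem isoConst_pyramid_eq_iff {n : ℕ} (hn : 1 ≤ n) (K : Set (E n)) (hK : IsCompact K)
    (hv : 0 < vol K) :
    isoConst (pyramid K) = simplexConst (n + 1) ↔ isoConst K = simplexConst n := by
  rw [isoConst_eq_iff hn K hK, isoConst_eq_iff (by omega) _ (isCompact_pyramid K hK),
    ← div_eq_one_iff_eq (cN_pos' (n + 1)).ne', isoPow_pyramid K hK hv,
    div_eq_one_iff_eq (cN_pos' n).ne']

theorem strong_pyramid_iff {n : ℕ} (hn : 1 ≤ n) (K : Set (E n)) (hK : IsCompact K)
    (hint : (interior K).Nonempty) (hv : 0 < vol K) : Strong (pyramid K) ↔ Strong K := by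
  unfold Strong
  rw [isoConst_pyramid_le_iff hn K hK hv, isoConst_pyramid_eq_iff hn K hK hv]
  constructor
  · rintro ⟨h1, h2⟩
    exact ⟨h1, fun h => isSimplex_of_pyramid K hint (h2 h)⟩
  · rintro ⟨h1, h2⟩
    exact ⟨h1, fun h => isSimplex_pyramid K (h2 h)⟩

/-- The strong isotropic constant conjecture in dimension `n`, with its equality clause. -/
def StrongConj (n : ℕ) : Prop :=
  ∀ K : Set (E n), IsCompact K → Convex ℝ K → (interior K).Nonempty →
    isoConst K ≤ simplexConst n ∧ (isoConst K = simplexConst n → IsSimplex K)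

theorem strongConj_of_succ {n : ℕ} (hn : 1 ≤ n) (h : StrongConj (n + 1)) : StrongConj n := by
  intro K hK hc hint
  have hv : 0 < vol K := (interior_nonempty_iff_vol_pos K hK hc).1 hint
  have hP := isCompact_pyramid K hK
  have hPc := convex_pyramid K hc
  have hPi : (interior (pyramid K)).Nonempty :=
    (interior_nonempty_iff_vol_pos _ hP hPc).2 (vol_pyramid_pos K hK hv)
  exact (strong_pyramid_iff hn K hK hint hv).1 (h (pyramid K) hP hPc hPi)

end P254
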