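import Vale.Agent.Lib.P254b.Gen

/-! # P254b unit S1: integrals of homogeneous functions over dilates

Use `MeasureTheory.Measure.setIntegral_comp_smul_of_pos` (with `Module.finrank ℝ (ι → ℝ) = card ι`). -/

namespace P254
open MeasureTheory
open scoped Pointwise
variable {ι : Type*} [Fintype ι]

theorem setIntegral_smul_set (K : Set (ι → ℝ)) (φ : (ι → ℝ) → ℝ) (a : ℕ)
    (hφ : ∀ (s : ℝ) (x : ι → ℝ), φ (s • x) = s ^ a * φ x) (s : ℝ) (hs : 0 < s) :
    ∫ x in s • K, φ x = s ^ (Fintype.card ι + a) * ∫ x in K, φ x := by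
  have h := Measure.setIntegral_comp_smul_of_pos (volume : Measure (ι → ℝ)) φ K hs
  simp only [hφ] at h
  rw [integral_const_mul, Module.finrank_fintype_fun_eq_card, smul_eq_mul] at h
  have hs' : s ^ Fintype.card ι ≠ 0 := (pow_pos hs _).ne'
  rw [pow_add, mul_assoc, h]
  field_simp

end P254
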