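import Vale.Agent.Lib.P254b.Convex

/-! # P254b unit X1a: vertices of the join of two simplices -/

namespace P254
open MeasureTheory

/-- The vertices of the join of two simplices: `(b i, 0, 0)` and `(0, b' j, 1)`. -/
def joinVert {n m : ℕ} (b : Fin (n + 1) → E n) (b' : Fin (m + 1) → E m) :
    Fin (n + 1) ⊕ Fin (m + 1) → E (n + m + 1) :=
  Sum.elim (fun i => Fin.append (Fin.append (b i) (0 : E m)) (fun _ : Fin 1 => (0 : ℝ)))
    (fun j => Fin.append (Fin.append (0 : E n) (b' j)) (fun _ : Fin 1 => (1 : ℝ)))

/-- X1a.  `affineIndependent_iff`: if `∑ w = 0` and `∑ w • joinVert = 0`, the last coordinate gives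
`∑ w (inr j) = 0`, hence `∑ w (inl i) = 0`; the first `n` coordinates give `∑ w (inl i) • b i = 0`,
the next `m` coordinates `∑ w (inr j) • b' j = 0` (`Fintype.sum_sum_type`, `Fin.append_left/right`). -/
theorem affineIndependent_joinVert {n m : ℕ} (b : Fin (n + 1) → E n) (b' : Fin (m + 1) → E m)
    (hb : AffineIndependent ℝ b) (hb' : AffineIndependent ℝ b') :
    AffineIndependent ℝ (joinVert b b') := by
  classical
  rw [affineIndependent_iff] at hb hb' ⊢
  intro s w hw0 hw1
  set u : Fin (n + 1) ⊕ Fin (m + 1) → ℝ := fun e => if e ∈ s then w e else 0 with hu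
  have hu0 : ∑ e, u e = 0 := by
    rw [← hw0]; simp [hu, Finset.sum_ite_mem]
  have hu1 : ∑ e, u e • joinVert b b' e = 0 := by
    rw [← hw1]; simp [hu, ite_smul, Finset.sum_ite_mem]
  rw [Fintype.sum_sum_type] at hu0 hu1
  have hlast : ∑ j, u (Sum.inr j) = 0 := by
    have h := congrFun hu1 (Fin.natAdd (n + m) 0)
    simpa [joinVert, Fin.append_right, Finset.sum_apply] using h
  have hfirst : ∑ i, u (Sum.inl i) = 0 := by linarith
  have h1 : ∑ i, u (Sum.inl i) • b i = 0 := by
    funext c
    have h := congrFun hu1 (Fin.castAdd 1 (Fin.castAdd m c))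
    simpa [joinVert, Fin.append_left, Finset.sum_apply] using h
  have h2 : ∑ j, u (Sum.inr j) • b' j = 0 := by
    funext c
    have h := congrFun hu1 (Fin.castAdd 1 (Fin.natAdd n c))
    simpa [joinVert, Fin.append_left, Fin.append_right, Finset.sum_apply] using h
  have k1 := hb Finset.univ (fun i => u (Sum.inl i)) hfirst h1
  have k2 := hb' Finset.univ (fun j => u (Sum.inr j)) hlast h2
  intro e he
  have : u e = 0 := by
    rcases e with i | j
    · exact k1 i (Finset.mem_univ _)
    · exact k2 j (Finset.mem_univ _)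
  simpa [hu, he] using this

end P254
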